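import Mathlib

/-! Highest weight vectors in functions on labelings, and the determinants `D`. -/

namespace Vale.Agent.P197

open Equiv Finset

set_option linter.unusedSectionVars false

variable {P : Type*} [Fintype P] [DecidableEq P]

/-- number of positions carrying the label `a` -/
def cnt {L : Type*} [DecidableEq L] (i : P → L) (a : L) : ℕ :=
  (univ.filter (fun p => i p = a)).card

/-- the raising operator -/
def raise (a b : ℕ) (f : (P → ℕ) → ℝ) (i : P → ℕ) : ℝ :=
  ∑ p, if i p = a then f (Function.update i p b) else 0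

/-- highest weight vector of weight `la` -/
def IsHW (la : ℕ → ℕ) (f : (P → ℕ) → ℝ) : Prop :=
  (∀ i, f i ≠ 0 → ∀ a, cnt i a = la a) ∧ ∀ a b, a < b → ∀ i, raise a b f i = 0

theorem cnt_comp_equiv {Q L : Type*} [Fintype Q] [DecidableEq L] (e : Q ≃ P) (i : P → L)
    (a : L) : cnt (i ∘ e) a = cnt i a := by
  unfold cnt
  refine Finset.card_nbij' e e.symm ?_ ?_ ?_ ?_ <;> intro x hx <;> simp_all

theorem IsHW.comp_equiv {Q : Type*} [Fintype Q] [DecidableEq Q] {la : ℕ → ℕ}
    {f : (Q → ℕ) → ℝ} (hf : IsHW la f) (e : Q ≃ P) : IsHW la (fun i : P → ℕ => f (i ∘ e)) := by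
  refine ⟨fun i hi a => ?_, fun a b hab i => ?_⟩
  · rw [← hf.1 _ hi a, cnt_comp_equiv]
  · rw [← hf.2 a b hab (i ∘ e)]
    unfold raise
    rw [← e.sum_comp]
    refine Finset.sum_congr rfl fun q _ => ?_
    simp only [Function.comp_apply]
    rw [Function.update_comp_eq_of_injective _ e.injective]

theorem IsHW.zero (la : ℕ → ℕ) : IsHW la (fun _ : P → ℕ => (0 : ℝ)) :=
  ⟨fun _ h => absurd rfl h, fun _ _ _ _ => by simp [raise]⟩

theorem IsHW.add {la : ℕ → ℕ} {f g : (P → ℕ) → ℝ} (hf : IsHW la f) (hg : IsHW la g) :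
    IsHW la (fun i => f i + g i) := by
  refine ⟨fun i hi a => ?_, fun a b hab i => ?_⟩
  · by_cases h : f i = 0
    · exact hg.1 i (by simpa [h] using hi) a
    · exact hf.1 i h a
  · have := hf.2 a b hab i
    have h2 := hg.2 a b hab i
    have h3 : raise a b (fun i => f i + g i) i = raise a b f i + raise a b g i := by
      unfold raise
      rw [← Finset.sum_add_distrib]
      refine Finset.sum_congr rfl fun p _ => ?_
      split_ifs <;> simp
    rw [h3, this, h2, add_zero]

theorem IsHW.const_mul {la : ℕ → ℕ} {f : (P → ℕ) → ℝ} (hf : IsHW la f) (c : ℝ) :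
    IsHW la (fun i => c * f i) := by
  refine ⟨fun i hi a => hf.1 i (right_ne_zero_of_mul hi) a, fun a b hab i => ?_⟩
  have := hf.2 a b hab i
  have h3 : raise a b (fun i => c * f i) i = c * raise a b f i := by
    unfold raise
    rw [Finset.mul_sum]
    refine Finset.sum_congr rfl fun p _ => ?_
    split_ifs <;> simp
  rw [h3, this, mul_zero]

theorem IsHW.mul_const {la : ℕ → ℕ} {f : (P → ℕ) → ℝ} (hf : IsHW la f) (c : ℝ) :
    IsHW la (fun i => f i * c) := by
  simpa [mul_comm] using hf.const_mul c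

theorem IsHW.sum {la : ℕ → ℕ} {ι : Type*} (s : Finset ι) {f : ι → (P → ℕ) → ℝ}
    (hf : ∀ k ∈ s, IsHW la (f k)) : IsHW la (fun i => ∑ k ∈ s, f k i) := by
  classical
  induction s using Finset.induction_on with
  | empty => simpa using IsHW.zero la
  | insert a s ha ih =>
    simp only [Finset.sum_insert ha]
    exact (hf a (by simp)).add (ih fun k hk => hf k (by simp [hk]))

theorem cnt_sum {A B : Type*} [Fintype A] [Fintype B] (i : A ⊕ B → ℕ) (a : ℕ) :
    cnt i a = cnt (i ∘ Sum.inl) a + cnt (i ∘ Sum.inr) a := by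
  unfold cnt
  simp only [Finset.card_filter, Fintype.sum_sum_type, Function.comp_apply]

theorem IsHW.prod {A B : Type*} [Fintype A] [Fintype B] [DecidableEq A] [DecidableEq B]
    {la mu : ℕ → ℕ} {f : (A → ℕ) → ℝ} {g : (B → ℕ) → ℝ} (hf : IsHW la f) (hg : IsHW mu g) :
    IsHW (fun a => la a + mu a) (fun i : A ⊕ B → ℕ => f (i ∘ Sum.inl) * g (i ∘ Sum.inr)) := by
  refine ⟨fun i hi a => ?_, fun a b hab i => ?_⟩
  · rw [cnt_sum, hf.1 _ (left_ne_zero_of_mul hi), hg.1 _ (right_ne_zero_of_mul hi)]
  · have h1 := hf.2 a b hab (i ∘ Sum.inl)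
    have h2 := hg.2 a b hab (i ∘ Sum.inr)
    unfold raise at *
    rw [Fintype.sum_sum_type]
    have e1 : ∑ p : A, (if i (Sum.inl p) = a then
        f (Function.update i (Sum.inl p) b ∘ Sum.inl) *
          g (Function.update i (Sum.inl p) b ∘ Sum.inr) else 0) =
        (∑ p : A, if (i ∘ Sum.inl) p = a then f (Function.update (i ∘ Sum.inl) p b) else 0) *
          g (i ∘ Sum.inr) := by
      rw [Finset.sum_mul]
      refine Finset.sum_congr rfl fun p _ => ?_
      rw [Function.update_comp_eq_of_injective _ Sum.inl_injective,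
        Function.update_comp_eq_of_forall_ne _ _ (fun _ => Sum.inr_ne_inl)]
      simp
    have e2 : ∑ p : B, (if i (Sum.inr p) = a then
        f (Function.update i (Sum.inr p) b ∘ Sum.inl) *
          g (Function.update i (Sum.inr p) b ∘ Sum.inr) else 0) =
        f (i ∘ Sum.inl) *
        (∑ p : B, if (i ∘ Sum.inr) p = a then g (Function.update (i ∘ Sum.inr) p b) else 0) := by
      rw [Finset.mul_sum]
      refine Finset.sum_congr rfl fun p _ => ?_
      rw [Function.update_comp_eq_of_injective _ Sum.inr_injective,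
        Function.update_comp_eq_of_forall_ne _ _ (fun _ => Sum.inl_ne_inr)]
      simp
    rw [e1, e2, h1, h2]
    simp

theorem lt_of_cnt {m : ℕ} {i : P → ℕ} (h : ∀ a, cnt i a = m - a) (p : P) : i p < m := by
  have h1 := h (i p)
  have : 0 < cnt i (i p) := Finset.card_pos.2 ⟨p, by simp⟩
  omega

/-! ### determinants -/

variable {A : Type*} [DecidableEq A]

/-- the signed indicator that `(i, α)` is a rearrangement of `τ` -/
noncomputable def D (τ : P → ℕ × A) (i : P → ℕ) (α : P → A) : ℝ :=
  Matrix.det (Matrix.of fun p q => if (i p, α p) = τ q then (1 : ℝ) else 0)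

theorem D_comp (τ : P → ℕ × A) (i : P → ℕ) (α : P → A) (c : Perm P) :
    D τ (i ∘ c) (α ∘ c) = ((Perm.sign c : ℤ) : ℝ) * D τ i α := by
  unfold D
  rw [← Matrix.det_permute]
  rfl

theorem D_eq_sum (τ : P → ℕ × A) (i : P → ℕ) (α : P → A) :
    D τ i α = ∑ σ : Perm P, if ∀ q, (i (σ q), α (σ q)) = τ q then ((Perm.sign σ : ℤ) : ℝ)
      else 0 := by
  unfold D
  rw [Matrix.det_apply']
  refine Finset.sum_congr rfl fun σ _ => ?_
  simp only [Matrix.of_apply, Finset.prod_boole, Finset.mem_univ, true_implies]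
  split_ifs <;> simp

theorem exists_of_D_ne {τ : P → ℕ × A} {i : P → ℕ} {α : P → A} (h : D τ i α ≠ 0) :
    ∃ σ : Perm P, ∀ q, (i (σ q), α (σ q)) = τ q := by
  rw [D_eq_sum] at h
  obtain ⟨σ, -, hσ⟩ := Finset.exists_ne_zero_of_sum_ne_zero h
  refine ⟨σ, ?_⟩
  by_contra h'
  exact hσ (if_neg h')

theorem D_self {τ : P → ℕ × A} (hτ : Function.Injective τ) :
    D τ (fun p => (τ p).1) (fun p => (τ p).2) = 1 := by
  unfold D
  convert Matrix.det_one (n := P) (R := ℝ)
  ext p q
  simp [Matrix.one_apply, hτ.eq_iff]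

theorem sign_sq (c : Perm P) : ((Perm.sign c : ℤ) : ℝ) * ((Perm.sign c : ℤ) : ℝ) = 1 := by
  rw [← Int.cast_mul, ← Units.val_mul, Int.units_mul_self]
  simp

theorem D_ne_of_exists {τ : P → ℕ × A} (hτ : Function.Injective τ) {i : P → ℕ} {α : P → A}
    (σ : Perm P) (h : ∀ q, (i (σ q), α (σ q)) = τ q) : D τ i α ≠ 0 := by
  have h1 := D_comp τ i α σ
  have h2 : i ∘ σ = fun p => (τ p).1 := by
    funext q
    simp [← h q]
  have h3 : α ∘ σ = fun p => (τ p).2 := by
    funext q
    simp [← h q]
  rw [h2, h3, D_self hτ] at h1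
  intro h0
  simp [h0] at h1

theorem sum_det_updateRow (M N : Matrix P P ℝ) :
    ∑ p, Matrix.det (M.updateRow p ((M * N) p)) = M.det * N.trace := by
  have h1 : ∀ p v, Matrix.det (M.updateRow p v) = ∑ q, M.adjugate q p * v q := by
    intro p v
    rw [← Matrix.cramer_transpose_apply, Matrix.cramer_eq_adjugate_mulVec,
      ← Matrix.adjugate_transpose]
    simp [Matrix.mulVec, dotProduct]
  simp only [h1]
  rw [Finset.sum_comm]
  have h2 : ∑ q, ∑ p, M.adjugate q p * (M * N) p q = (M.adjugate * (M * N)).trace := by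
    simp [Matrix.trace, Matrix.mul_apply (M := M.adjugate)]
  rw [h2, ← Matrix.mul_assoc, Matrix.adjugate_mul]
  simp

theorem D_hw {τ : P → ℕ × A} (hτ : Function.Injective τ)
    (hd : ∀ q a, a < (τ q).1 → ∃ q', τ q' = (a, (τ q).2)) (α : P → A) :
    IsHW (cnt (fun q => (τ q).1)) (fun i => D τ i α) := by
  refine ⟨fun i hi a => ?_, fun a b hab i => ?_⟩
  · obtain ⟨σ, hσ⟩ := exists_of_D_ne hi
    rw [← cnt_comp_equiv σ i]
    congr 1
    funext q
    simp [← hσ q]
  · set M : Matrix P P ℝ := Matrix.of fun p q => if (i p, α p) = τ q then (1 : ℝ) else 0 with hM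
    set N : Matrix P P ℝ :=
      Matrix.of fun q' q => if τ q' = (a, (τ q).2) ∧ (τ q).1 = b then (1 : ℝ) else 0 with hN
    have htr : N.trace = 0 := by
      unfold Matrix.trace
      refine Finset.sum_eq_zero fun q _ => ?_
      simp only [hN, Matrix.diag_apply, Matrix.of_apply]
      rw [if_neg]
      rintro ⟨h1, h2⟩
      have := congrArg Prod.fst h1
      simp only at this
      omega
    have hMN : ∀ p q, (M * N) p q = if i p = a ∧ (b, α p) = τ q then 1 else 0 := by
      intro p q
      rw [Matrix.mul_apply]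
      simp only [hM, hN, Matrix.of_apply]
      by_cases hq : (τ q).1 = b
      · obtain ⟨q0, hq0⟩ := hd q a (by omega)
        rw [Finset.sum_eq_single q0]
        · rw [hq0]
          simp [hq, Prod.ext_iff, eq_comm]
        · intro q' _ hq'
          rw [if_neg (show ¬ (τ q' = (a, (τ q).2) ∧ (τ q).1 = b) from
            fun h => hq' (hτ (h.1.trans hq0.symm)))]
          simp
        · simp
      · rw [if_neg]
        · simp [hq]
        · rintro ⟨-, h⟩
          exact hq (by rw [← h])
    have := sum_det_updateRow M N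
    rw [htr, mul_zero] at this
    rw [← this]
    unfold raise
    refine Finset.sum_congr rfl fun p _ => ?_
    split_ifs with hp
    · unfold D
      refine congrArg Matrix.det ?_
      ext p' q
      by_cases h : p' = p
      · subst h
        simp [hMN, hp]
      · simp [Matrix.updateRow_ne h, Function.update_of_ne h, hM]
    · symm
      apply Matrix.det_eq_zero_of_row_eq_zero p
      intro q
      simp [hMN, hp]

end Vale.Agent.P197
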