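import Vale.Agent.P197.Weak

/-! Highest weight vectors are combinations of polytabloids. -/

namespace Vale.Agent.P197

open Equiv Finset

variable {N : ℕ}

theorem lex_lt {i j : Fin N → ℕ} (p : Fin N) (h1 : ∀ q < p, i q = j q) (h2 : i p < j p) :
    toLex i < toLex j := ⟨p, h1, h2⟩

theorem cnt_split {P : Type*} [Fintype P] [DecidableEq P] (Q : Finset P) (j : P → ℕ) (c : ℕ) :
    cnt j c = (Q.filter (fun p => j p = c)).card + (Qᶜ.filter (fun p => j p = c)).card := by
  unfold cnt
  rw [← Finset.card_union_of_disjoint (Finset.disjoint_filter_filter disjoint_compl_right),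
    ← Finset.filter_union, Finset.union_compl]

theorem lattice_word {m : ℕ} {f : (Fin N → ℕ) → ℝ} (hf : IsHW (fun a => m - a) f)
    {i : Fin N → ℕ} (hi : f i ≠ 0) (hmax : ∀ j, toLex i < toLex j → f j = 0) (t : Fin N)
    (a : ℕ) : ((Ici t).filter (fun p => i p = a + 1)).card ≤
      ((Ici t).filter (fun p => i p = a)).card := by
  by_contra hc
  push Not at hc
  have him := lt_of_cnt (hf.1 i hi)
  obtain ⟨p0, hp0⟩ := Finset.card_pos.1 (lt_of_le_of_lt (Nat.zero_le _) hc)
  have ha : a + 1 < m := (mem_filter.1 hp0).2 ▸ him p0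
  let g : (Fin N → Fin m) × Unit → ℝ := fun x =>
    if ∀ p, p < t → up x.1 p = i p then f (up x.1) else 0
  have h0 := sl2 (Ici t) (⟨a + 1, ha⟩ : Fin m) ⟨a, by omega⟩ g ?_ ?_
  · have := congrFun h0 (fun p => ⟨i p, him p⟩, ())
    simp only [g, Pi.zero_apply] at this
    exact hi ((if_pos (fun _ _ => rfl)).symm.trans this)
  · funext x
    rw [E_apply, Pi.zero_apply]
    have e1 : ∀ p ∈ Ici t, (∀ q, q < t → up (Function.update x.1 p ⟨a + 1, ha⟩) q = i q) ↔
        ∀ q, q < t → up x.1 q = i q := by
      intro p hp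
      refine forall₂_congr fun q hq => ?_
      rw [up_update, Function.update_of_ne (lt_of_lt_of_le hq (mem_Ici.1 hp)).ne]
    by_cases hx : ∀ q, q < t → up x.1 q = i q
    · have e2 := hf.2 a (a + 1) (by omega) (up x.1)
      unfold raise at e2
      rw [← Finset.sum_add_sum_compl (Ici t), Finset.sum_eq_zero (s := (Ici t)ᶜ), add_zero] at e2
      · refine Eq.trans ?_ e2
        refine Finset.sum_congr rfl fun p hp => ?_
        simp only [g]
        rw [if_pos ((e1 p hp).2 hx), up_update]
        exact if_congr (up_eq_iff x.1 p ⟨a, by omega⟩).symm rfl rfl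
      · intro p hp
        have hp' : p < t := by simpa using hp
        split_ifs with h1
        · refine hmax _ (lex_lt p (fun q hq => ?_) ?_)
          · rw [Function.update_of_ne hq.ne, hx q (hq.trans hp')]
          · rw [Function.update_self, ← hx p hp', h1]
            omega
        · rfl
    · refine Finset.sum_eq_zero fun p hp => ?_
      simp only [g]
      rw [if_neg (fun h => hx ((e1 p hp).1 h)), ite_self]
  · intro x hx
    simp only [g] at hx
    split_ifs at hx with h1
    swap
    · exact absurd rfl hx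
    have e3 : ∀ c : Fin m, ((Ici t).filter (fun p => x.1 p = c)).card =
        ((Ici t).filter (fun p => i p = c.val)).card := by
      intro c
      have a1 := cnt_split (Ici t) (up x.1) c.val
      have a2 := cnt_split (Ici t) i c.val
      have a3 : ((Ici t)ᶜ.filter (fun p => up x.1 p = c.val)) =
          (Ici t)ᶜ.filter (fun p => i p = c.val) :=
        Finset.filter_congr fun p hp => by rw [h1 p (by simpa using hp)]
      rw [hf.1 _ hx, a3] at a1
      rw [hf.1 _ hi] at a2
      simp only [up_eq_iff] at a1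
      exact Nat.add_right_cancel (a1.symm.trans a2)
    rw [e3, e3]
    exact hc

/-- real polytabloids of staircase shape -/
def PT (N m : ℕ) : Set ((Fin N → ℕ) → ℝ) :=
  {g | ∃ T : Fin N → ℕ × ℕ, Function.Injective T ∧ (∀ c, (∃ p, T p = c) ↔ c.1 + c.2 < m) ∧
    g = fun i => D T i (fun p => (T p).2)}

theorem cap_step {m : ℕ} {f : (Fin N → ℕ) → ℝ} (hf : IsHW (fun a => m - a) f) (hne : f ≠ 0) :
    ∃ i, f i ≠ 0 ∧ ∃ e ∈ PT N m, IsHW (fun a => m - a) (f - f i • e) ∧
      ∀ j, (f - f i • e) j ≠ 0 → toLex j < toLex i := by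
  classical
  obtain ⟨i0, hi0⟩ : ∃ i, f i ≠ 0 := Function.ne_iff.1 hne
  obtain ⟨i, hi, hmax⟩ := Finset.exists_max_image ((Y (Fin N) m).filter (fun j => f j ≠ 0))
    (fun j => toLex j) ⟨i0, mem_filter.2 ⟨mem_Y.2 (lt_of_cnt (hf.1 _ hi0)), hi0⟩⟩
  have hi' := (mem_filter.1 hi).2
  have hmax' : ∀ j, f j ≠ 0 → toLex j ≤ toLex i := fun j hj =>
    hmax j (mem_filter.2 ⟨mem_Y.2 (lt_of_cnt (hf.1 _ hj)), hj⟩)
  have hlat := lattice_word hf hi' (fun j hj => by
    by_contra h0
    exact absurd (hmax' j h0) (not_le.2 hj))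
  have hlat' : ∀ (t : Fin N) (a d : ℕ), ((Ici t).filter (fun p => i p = a + d)).card ≤
      ((Ici t).filter (fun p => i p = a)).card := by
    intro t a d
    induction d with
    | zero => exact le_rfl
    | succ d ih => exact (hlat t (a + d)).trans ih
  let col : Fin N → ℕ := fun p => ((Ioi p).filter (fun q => i q = i p)).card
  let T : Fin N → ℕ × ℕ := fun p => (i p, col p)
  have hcol : ∀ p q, p < q → i p = i q → col q < col p := by
    intro p q hpq h
    refine Finset.card_lt_card ⟨fun r hr => ?_, fun hc => ?_⟩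
    · simp only [mem_filter, mem_Ioi] at hr ⊢
      exact ⟨hpq.trans hr.1, hr.2.trans h.symm⟩
    · have := hc (show q ∈ _ from mem_filter.2 ⟨mem_Ioi.2 hpq, h.symm⟩)
      simp at this
  have hT : Function.Injective T := by
    intro p q hpq
    simp only [T, Prod.mk.injEq] at hpq
    rcases lt_trichotomy p q with h | h | h
    · have := hcol p q h hpq.1
      omega
    · exact h
    · have := hcol q p h hpq.1.symm
      omega
  have hlt : ∀ p, col p < m - i p := by
    intro p
    refine lt_of_lt_of_eq ?_ (hf.1 i hi' (i p))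
    refine Finset.card_lt_card ⟨fun r hr => ?_, fun hc => ?_⟩
    · simp only [mem_filter, mem_Ioi, mem_univ, true_and] at hr ⊢
      exact hr.2
    · have := hc (show p ∈ _ from mem_filter.2 ⟨mem_univ _, rfl⟩)
      simp at this
  have hrange : ∀ c : ℕ × ℕ, (∃ p, T p = c) ↔ c.1 + c.2 < m := by
    rintro ⟨a, x⟩
    constructor
    · rintro ⟨p, hp⟩
      have := hlt p
      simp only [T, Prod.mk.injEq] at hp
      simp only
      omega
    · intro h
      obtain ⟨p, hp, hp'⟩ := Finset.surjOn_of_injOn_of_card_le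
        (s := univ.filter (fun p => i p = a)) (t := range (m - a)) col
        (fun p hp => by
          have := hlt p
          simp only [coe_filter, mem_univ, true_and, Set.mem_ofPred_eq] at hp
          simp only [coe_range, Set.mem_Iio]
          omega)
        (fun p hp q hq hpq => by
          simp only [coe_filter, mem_univ, true_and, Set.mem_ofPred_eq] at hp hq
          exact hT (Prod.ext (hp.trans hq.symm) hpq))
        (by rw [card_range]; exact (hf.1 i hi' a).ge)
        (show x ∈ _ by simp only [coe_range, Set.mem_Iio]; omega)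
      simp only [coe_filter, mem_univ, true_and, Set.mem_ofPred_eq] at hp
      exact ⟨p, Prod.ext hp hp'⟩
  have hstd : ∀ p q, col p = col q → i p < i q → q < p := by
    intro p q h1 h2
    by_contra h3
    have h4 : p < q := lt_of_le_of_ne (not_lt.1 h3) (fun h => by rw [h] at h2; omega)
    have h5 := hlat' q (i p) (i q - i p)
    rw [show i p + (i q - i p) = i q by omega] at h5
    have h6 : ((Ici q).filter (fun r => i r = i p)).card ≤ col p :=
      Finset.card_le_card fun r hr => by
        simp only [mem_filter, mem_Ioi, mem_Ici] at hr ⊢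
        exact ⟨lt_of_lt_of_le h4 hr.1, hr.2⟩
    have h7 : col q < ((Ici q).filter (fun r => i r = i q)).card := by
      refine Finset.card_lt_card ⟨fun r hr => ?_, fun hc => ?_⟩
      · simp only [mem_filter, mem_Ioi, mem_Ici] at hr ⊢
        exact ⟨hr.1.le, hr.2⟩
      · have := hc (show q ∈ _ from mem_filter.2 ⟨mem_Ici.2 le_rfl, rfl⟩)
        simp at this
    omega
  have hhw : IsHW (fun a => m - a) (fun j => D T j col) := by
    have := D_hw hT (fun q a ha => (hrange _).2 (by
      have := (hrange (T q)).1 ⟨q, rfl⟩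
      simp only
      omega)) col
    rwa [show cnt (fun q => (T q).1) = fun a => m - a from funext (hf.1 i hi')] at this
  refine ⟨i, hi', fun j => D T j col, ⟨T, hT, hrange, rfl⟩, ?_, fun j hj => ?_⟩
  · convert hf.add (hhw.const_mul (- f i)) using 2 with j
    simp only [Pi.sub_apply, Pi.smul_apply, smul_eq_mul]
    ring
  · have h1 : D T i col = 1 := D_self hT
    have hji : j ≠ i := by
      rintro rfl
      simp [h1] at hj
    by_cases h2 : f j = 0
    swap
    · exact lt_of_le_of_ne (hmax' j h2) hji
    have h3 : D T j col ≠ 0 := by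
      intro h3
      simp [h2, h3] at hj
    obtain ⟨σ, hσ⟩ := exists_of_D_ne h3
    have h4 : ∀ p, j p = i (σ.symm p) ∧ col p = col (σ.symm p) := by
      intro p
      simpa [T] using hσ (σ.symm p)
    have h5 : (univ.filter (fun p => σ.symm p ≠ p)).Nonempty := by
      by_contra h
      apply hji
      funext p
      have : σ.symm p = p := by
        by_contra h'
        exact h ⟨p, by simpa using h'⟩
      rw [(h4 p).1, this]
    let p0 := Finset.min' _ h5
    have h6 : σ.symm p0 ≠ p0 := (mem_filter.1 (Finset.min'_mem _ h5)).2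
    have h7 : ∀ q < p0, σ.symm q = q := by
      intro q hq
      by_contra h
      exact absurd (Finset.min'_le _ q (mem_filter.2 ⟨mem_univ _, h⟩)) (not_le.2 hq)
    refine lex_lt p0 (fun q hq => by rw [(h4 q).1, h7 q hq]) ?_
    rw [(h4 p0).1]
    rcases lt_trichotomy (i (σ.symm p0)) (i p0) with h | h | h
    · exact h
    · exact absurd (hT (Prod.ext h (h4 p0).2.symm)) h6
    · exact absurd (σ.symm.injective (h7 _ (hstd _ _ (h4 p0).2 h))) h6

theorem cap {m : ℕ} {f : (Fin N → ℕ) → ℝ} (hf : IsHW (fun a => m - a) f) :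
    f ∈ Submodule.span ℝ (PT N m) := by
  have step : ∀ f : (Fin N → ℕ) → ℝ, IsHW (fun a => m - a) f →
      (∀ i, f i ≠ 0 → ∀ g : (Fin N → ℕ) → ℝ, IsHW (fun a => m - a) g →
        (∀ j, g j ≠ 0 → toLex j < toLex i) → g ∈ Submodule.span ℝ (PT N m)) →
      f ∈ Submodule.span ℝ (PT N m) := by
    intro f hf h
    by_cases h0 : f = 0
    · rw [h0]
      exact Submodule.zero_mem _
    obtain ⟨i, hi, e, he, h1, h2⟩ := cap_step hf h0
    have := Submodule.add_mem _ (h i hi _ h1 h2)
      (Submodule.smul_mem _ (f i) (Submodule.subset_span he))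
    rwa [sub_add_cancel] at this
  have key : ∀ i : Lex (Fin N → ℕ), ∀ g : (Fin N → ℕ) → ℝ, IsHW (fun a => m - a) g →
      (∀ j, g j ≠ 0 → toLex j < i) → g ∈ Submodule.span ℝ (PT N m) := by
    intro i
    induction i using WellFoundedLT.induction with
    | _ i ih => exact fun g hg h => step g hg fun j hj => ih _ (h j hj)
  exact step f hf fun i _ => key _

end Vale.Agent.P197
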