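import Mathlib

/-! Specht modules and Kronecker coefficients. -/

namespace Vale.Agent.P197

open Equiv

/-- The permutation representation of `S_n` on formal linear combinations of row assignments
`r : Fin n → ℕ` (a tabloid is recorded by the row `r p` of each entry `p`); `σ` sends the
basis vector of `r` to the basis vector of `r ∘ σ⁻¹`. -/
noncomputable def tabloidRep (n : ℕ) : Representation ℂ (Perm (Fin n)) ((Fin n → ℕ) →₀ ℂ) where
  toFun σ := Finsupp.lmapDomain ℂ ℂ (fun r => r ∘ ⇑σ⁻¹)
  map_one' := by
    apply Finsupp.lhom_ext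
    intro a b
    simp
  map_mul' σ τ := by
    apply Finsupp.lhom_ext
    intro a b
    simp [Function.comp_assoc]

/-- The polytabloid of a tableau `T` of shape `μ` (a bijection from the entries to the cells,
a cell being a pair (row, column)): the signed sum of `σ {T}` over the column stabilizer. -/
noncomputable def polytabloid {n : ℕ} {μ : YoungDiagram} (T : Fin n ≃ μ.cells) :
    (Fin n → ℕ) →₀ ℂ :=
  ∑ σ ∈ Finset.univ.filter (fun σ : Perm (Fin n) => ∀ p, (T (σ p)).1.2 = (T p).1.2),
    ((Perm.sign σ : ℤ) : ℂ) • tabloidRep n σ (Finsupp.single (fun p => (T p).1.1) 1)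

theorem tabloidRep_polytabloid {n : ℕ} {μ : YoungDiagram} (g : Perm (Fin n))
    (T : Fin n ≃ μ.cells) :
    tabloidRep n g (polytabloid T) = polytabloid (Equiv.trans g⁻¹ T) := by
  unfold polytabloid
  rw [map_sum]
  refine Finset.sum_nbij' (fun σ => g * σ * g⁻¹) (fun σ => g⁻¹ * σ * g) ?_ ?_ ?_ ?_ ?_
  · intro σ hσ
    simp only [Finset.mem_filter, Finset.mem_univ, true_and] at hσ ⊢
    intro p
    simp [hσ]
  · intro σ hσ
    simp only [Finset.mem_filter, Finset.mem_univ, true_and] at hσ ⊢
    intro p
    have := hσ (g p)
    simpa using this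
  · intro σ _
    group
  · intro σ _
    group
  · intro σ _
    have h1 : Perm.sign (g * σ * g⁻¹) = Perm.sign σ := by
      rw [Perm.sign_mul, Perm.sign_mul, Perm.sign_inv, mul_right_comm, Int.units_mul_self, one_mul]
    rw [h1, map_smul]
    congr 1
    rw [← Module.End.mul_apply, ← map_mul]
    simp only [tabloidRep, MonoidHom.coe_mk, OneHom.coe_mk, Finsupp.lmapDomain_apply,
      Finsupp.mapDomain_single]
    congr 1
    funext p
    simp

/-- The Specht module of shape `μ` inside the tabloid module: the span of the polytabloids. -/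
noncomputable def spechtSub (n : ℕ) (μ : YoungDiagram) : Subrepresentation (tabloidRep n) where
  toSubmodule := Submodule.span ℂ (Set.range (fun T : Fin n ≃ μ.cells => polytabloid T))
  apply_mem_toSubmodule g v hv := by
    induction hv using Submodule.span_induction with
    | mem x hx =>
      obtain ⟨T, rfl⟩ := hx
      exact Submodule.subset_span ⟨_, (tabloidRep_polytabloid g T).symm⟩
    | zero => simp
    | add x y _ _ hx hy => rw [map_add]; exact Submodule.add_mem _ hx hy
    | smul a x _ hx => rw [map_smul]; exact Submodule.smul_mem _ _ hx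

/-- The Specht module `S^μ` as a representation of `S_n`. -/
noncomputable def specht (n : ℕ) (μ : YoungDiagram) :
    Representation ℂ (Perm (Fin n)) (spechtSub n μ).toSubmodule :=
  (spechtSub n μ).toRepresentation

/-- The Kronecker coefficient `g(λ, μ, ν) = dim Hom_{S_n}(S^ν, S^λ ⊗ S^μ)`. -/
noncomputable def kronecker (n : ℕ) (la μ ν : YoungDiagram) : ℕ :=
  Module.finrank ℂ
    (Representation.IntertwiningMap (specht n ν) ((specht n la).tprod (specht n μ)))

/-- The staircase `ρ_m = (m, m - 1, ..., 1)`: the cells `(i, j)` with `i + j < m`. -/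
def staircase (m : ℕ) : YoungDiagram where
  cells := (Finset.range m ×ˢ Finset.range m).filter (fun c => c.1 + c.2 < m)
  isLowerSet := by
    rintro ⟨a, b⟩ ⟨c, d⟩ ⟨h1, h2⟩ h
    simp only [Finset.coe_filter, Finset.mem_product, Finset.mem_range, Set.mem_ofPred_eq] at *
    omega

end Vale.Agent.P197
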