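import Vale.Agent.P197.Weak

/-! The induction over Young diagrams. -/

namespace Vale.Agent.P197

open Equiv Finset

theorem chain (A : YoungDiagram) (k : ℕ) (hA : A.card ≤ k) : ∀ (d : ℕ) (B : YoungDiagram),
    A ≤ B → B.card = k + d → ∃ μ : YoungDiagram, A ≤ μ ∧ μ ≤ B ∧ μ.card = k := by
  intro d
  induction d with
  | zero => exact fun B h1 h2 => ⟨B, h1, le_rfl, h2⟩
  | succ d ih =>
    intro B h1 h2
    have hne : (B.cells \ A.cells).Nonempty := by
      rw [Finset.sdiff_nonempty]
      intro h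
      have := Finset.card_le_card h
      unfold YoungDiagram.card at *
      omega
    obtain ⟨x, hx⟩ := Finset.exists_maximal hne
    have hx1 := mem_sdiff.1 hx.1
    let B' : YoungDiagram := ⟨B.cells.erase x, by
      intro z y hyz hz
      simp only [coe_erase, Set.mem_sdiff, mem_coe, Set.mem_singleton_iff] at hz ⊢
      refine ⟨B.isLowerSet hyz hz.1, ?_⟩
      rintro rfl
      by_cases hzA : z ∈ A.cells
      · exact hx1.2 (A.isLowerSet hyz hzA)
      · exact hz.2 (le_antisymm (hx.2 (mem_sdiff.2 ⟨hz.1, hzA⟩) hyz) hyz)⟩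
    obtain ⟨μ, m1, m2, m3⟩ := ih B' (fun y hy => mem_erase.2 ⟨fun h => hx1.2 (h ▸ hy), h1 hy⟩)
      (by
        change (B.cells.erase x).card = _
        rw [Finset.card_erase_of_mem hx1.1]
        unfold YoungDiagram.card at h2
        omega)
    exact ⟨μ, m1, fun y hy => mem_of_mem_erase (m2 hy), m3⟩

theorem split (μ ν : YoungDiagram) (h : μ ≤ ν) (K : ℕ) (hK : μ.card + K = ν.card) :
    ∃ e : μ.cells ⊕ Fin K ≃ ν.cells, (∀ a, (e (Sum.inl a)).1 = a.1) ∧
      (∀ b, (e (Sum.inr b)).1 ∉ μ) ∧ Monotone (fun b => (e (Sum.inr b)).1.2) := by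
  have hc : (ν.cells \ μ.cells).card = K := by
    rw [Finset.card_sdiff_of_subset h]
    unfold YoungDiagram.card at hK
    omega
  let β0 : Fin K ≃ (ν.cells \ μ.cells : Finset _) := (Finset.equivFinOfCardEq hc).symm
  let β : Fin K ≃ (ν.cells \ μ.cells : Finset _) := (Tuple.sort (fun b => (β0 b).1.2)).trans β0
  let φ : μ.cells ⊕ Fin K → ν.cells :=
    Sum.elim (fun a => ⟨a.1, h a.2⟩) (fun b => ⟨(β b).1, (mem_sdiff.1 (β b).2).1⟩)
  have hφ : Function.Bijective φ := by
    constructor
    · rintro (a | b) (a' | b') hh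
      · simp only [φ, Sum.elim_inl, Subtype.mk.injEq] at hh
        rw [Subtype.ext hh]
      · simp only [φ, Sum.elim_inl, Sum.elim_inr, Subtype.mk.injEq] at hh
        exact absurd (hh ▸ a.2) (mem_sdiff.1 (β b').2).2
      · simp only [φ, Sum.elim_inl, Sum.elim_inr, Subtype.mk.injEq] at hh
        exact absurd (hh ▸ a'.2) (mem_sdiff.1 (β b).2).2
      · simp only [φ, Sum.elim_inr, Subtype.mk.injEq] at hh
        rw [β.injective (Subtype.ext hh)]
    · rintro ⟨c, hc'⟩
      by_cases h1 : c ∈ μ.cells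
      · exact ⟨Sum.inl ⟨c, h1⟩, rfl⟩
      · refine ⟨Sum.inr (β.symm ⟨c, mem_sdiff.2 ⟨hc', h1⟩⟩), ?_⟩
        simp [φ]
  exact ⟨Equiv.ofBijective φ hφ, fun a => rfl, fun b => (mem_sdiff.1 (β b).2).2,
    Tuple.monotone_sort (fun b => (β0 b).1.2)⟩

/-- the diagram with the first `a` rows and `b` columns removed -/
def shift (a b : ℕ) (ν : YoungDiagram) : YoungDiagram where
  cells := ν.cells.filter (fun c => (c.1 + a, c.2 + b) ∈ ν)
  isLowerSet := by
    rintro ⟨x, y⟩ ⟨z, w⟩ ⟨h1, h2⟩ h
    simp only [coe_filter, YoungDiagram.mem_cells, Set.mem_ofPred_eq] at *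
    exact ⟨ν.up_left_mem h1 h2 h.1, ν.up_left_mem (by omega) (by omega) h.2⟩

theorem mem_shift {a b : ℕ} {ν : YoungDiagram} {c : ℕ × ℕ} :
    c ∈ shift a b ν ↔ (c.1 + a, c.2 + b) ∈ ν :=
  ⟨fun h => (mem_filter.1 h).2,
    fun h => mem_filter.2 ⟨ν.up_left_mem (by omega) (by omega) h, h⟩⟩

theorem card_shift (a b : ℕ) (ν : YoungDiagram) :
    (shift a b ν).card + (ν.cells.filter (fun c => c.1 < a ∨ c.2 < b)).card ≤ ν.card := by
  have h1 : (shift a b ν).card ≤ (ν.cells.filter (fun c => ¬ (c.1 < a ∨ c.2 < b))).card :=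
    Finset.card_le_card_of_injOn (fun c => (c.1 + a, c.2 + b))
      (fun c hc => by
        simp only [coe_filter, YoungDiagram.mem_cells, Set.mem_ofPred_eq]
        exact ⟨mem_shift.1 hc, by omega⟩)
      (fun c _ d _ h => by
        simp only [Prod.mk.injEq] at h
        exact Prod.ext (by omega) (by omega))
  have h2 := Finset.card_filter_add_card_filter_not (s := ν.cells) (fun c => c.1 < a ∨ c.2 < b)
  unfold YoungDiagram.card at *
  omega

/-- the first `k` rows -/
def topRows (k : ℕ) (ν : YoungDiagram) : YoungDiagram where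
  cells := ν.cells.filter (fun c => c.1 < k)
  isLowerSet := by
    rintro ⟨x, y⟩ ⟨z, w⟩ ⟨h1, h2⟩ h
    simp only [coe_filter, YoungDiagram.mem_cells, Set.mem_ofPred_eq] at *
    exact ⟨ν.up_left_mem h1 h2 h.1, by omega⟩

theorem card_topRows (k : ℕ) (ν : YoungDiagram) :
    (ν.cells.filter (fun c => c.1 < k)).card = ∑ a ∈ range k, ν.rowLen a := by
  rw [Finset.card_eq_sum_card_fiberwise (f := Prod.fst) (t := range k)
    (fun c hc => by simpa using (mem_filter.1 hc).2)]
  refine Finset.sum_congr rfl fun a ha => ?_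
  rw [YoungDiagram.rowLen_eq_card]
  congr 1
  ext c
  simp only [mem_filter, YoungDiagram.mem_cells, YoungDiagram.mem_row_iff]
  have := mem_range.1 ha
  constructor
  · rintro ⟨⟨h1, -⟩, h2⟩
    exact ⟨h1, h2⟩
  · rintro ⟨h1, h2⟩
    exact ⟨⟨h1, by omega⟩, h2⟩

theorem arith1 (r : ℕ → ℕ) (hr : Antitone r) (n : ℕ)
    (h : 2 * ∑ a ∈ range (n + 1), r a = (n + 1) * (n + 2)) : 2 * n + 1 ≤ ∑ a ∈ range 4, r a := by
  by_cases hn : n + 1 ≤ 4
  · have : ∑ a ∈ range (n + 1), r a ≤ ∑ a ∈ range 4, r a :=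
      Finset.sum_le_sum_of_subset (range_mono hn)
    have h4 : n ≤ 3 := by omega
    interval_cases n <;> omega
  · obtain ⟨k, rfl⟩ : ∃ k, n = k + 3 := ⟨n - 3, by omega⟩
    rw [show k + 3 + 1 = 4 + k by omega, Finset.sum_range_add] at h
    have h1 : ∑ x ∈ range k, r (4 + x) ≤ k * r 3 := by
      simpa using Finset.sum_le_card_nsmul (range k) (fun x => r (4 + x)) (r 3)
        (fun x _ => hr (by omega))
    have h2 : 4 * r 3 ≤ ∑ a ∈ range 4, r a := by
      simpa using Finset.card_nsmul_le_sum (range 4) r (r 3)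
        (fun x hx => hr (by have := mem_range.1 hx; omega))
    by_contra hc
    push Not at hc
    have h3 : 2 * r 3 ≤ k + 3 := by omega
    nlinarith

theorem arith2 (r : ℕ → ℕ) (hr : Antitone r) (n : ℕ)
    (h : 2 * ∑ a ∈ range (n + 1), r a = (n + 1) * (n + 2)) :
    ∑ a ∈ range (n + 1), r a ≤ ∑ a ∈ range (n - 1), r a + (2 * n + 1) := by
  rcases n with _ | n
  · omega
  · rw [Finset.sum_range_succ, Finset.sum_range_succ] at h ⊢
    simp only [add_tsub_cancel_right]
    have h1 : n * r n ≤ ∑ a ∈ range n, r a := by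
      simpa using Finset.card_nsmul_le_sum (range n) r (r n)
        (fun x hx => hr (by have := mem_range.1 hx; omega))
    have h2 : r (n + 1) ≤ r n := hr (by omega)
    by_contra hc
    push Not at hc
    have h3 : n + 2 ≤ r n := by omega
    nlinarith

theorem str_all (m : ℕ) : ∀ ν : YoungDiagram, 2 * ν.card = m * (m + 1) → (∀ c ∈ ν, c.1 < m) →
    Str m (fun p : ν.cells => p.1.1) (fun p : ν.cells => p.1.2) := by
  induction m using Nat.strong_induction_on with
  | _ m ih =>
    intro ν h1 h2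
    rcases m with _ | n
    · have : IsEmpty ν.cells := ⟨fun p => absurd (h2 p.1 p.2) (by simp)⟩
      exact Str.base _ _
    have hr : Antitone ν.rowLen := fun a b hab => ν.rowLen_anti a b hab
    have hS : ν.card = ∑ a ∈ range (n + 1), ν.rowLen a := by
      rw [← card_topRows, Finset.filter_true_of_mem (fun c hc => h2 c hc)]
    have a1 := arith1 _ hr n (hS ▸ h1)
    have a2 := arith2 _ hr n (hS ▸ h1)
    have a3 := card_shift 4 0 ν
    simp only [Nat.not_lt_zero, or_false] at a3
    rw [card_topRows] at a3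
    have a4 : (topRows (n - 1) ν).card = ∑ a ∈ range (n - 1), ν.rowLen a := card_topRows _ _
    obtain ⟨μ, m1, m2, m3⟩ := chain (shift 4 0 ν) (ν.card - (2 * n + 1)) (by omega)
      ((topRows (n - 1) ν).card - (ν.card - (2 * n + 1))) (topRows (n - 1) ν)
      (fun c hc => by
        have := mem_shift.1 hc
        have h3 := h2 _ this
        refine mem_filter.2 ⟨ν.up_left_mem (by omega) (by omega) this, ?_⟩
        simp only at h3
        omega) (by omega)
    obtain ⟨e, e1, e2, e3⟩ := split μ ν (fun c hc => (mem_filter.1 (m2 hc)).1) (2 * n + 1)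
      (by omega)
    refine Str.transport e (Str.step n _ _ μ.rowLen (fun a => ?_) (fun b => ?_) e3 ?_ ?_)
    · simp only [Function.comp_apply, e1]
      exact YoungDiagram.mem_iff_lt_rowLen.1 a.2
    · exact not_lt.1 fun h => e2 b (YoungDiagram.mem_iff_lt_rowLen.2 h)
    · have key : ∀ p q, (e (Sum.inr p)).1.2 = (e (Sum.inr q)).1.2 →
          ¬ (e (Sum.inr p)).1.1 + 4 ≤ (e (Sum.inr q)).1.1 := fun p q h3 h4 =>
        e2 p (m1 (mem_shift.2 (ν.up_left_mem h4 h3.le (e (Sum.inr q)).2)))
      intro p q h3 h4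
      have k1 := key p q h3
      have k2 := key q p h3.symm
      simp only [Function.comp_apply] at h3 h4
      exact Sum.inr_injective (e.injective (Subtype.ext (Prod.ext (by omega) h3)))
    · have := ih (n - 1) (by omega) μ (by
        rw [m3]
        rcases n with _ | n
        · omega
        · simp only [add_tsub_cancel_right]
          have : 2 * (n + 1) + 1 ≤ ν.card := by omega
          zify [this] at h1 ⊢
          linarith) (fun c hc => (mem_filter.1 (m2 hc)).2)
      convert this using 1 <;> funext a <;> simp [e1]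

theorem wk_all (m : ℕ) : ∀ ν : YoungDiagram, 2 * ν.card = m * (m + 1) →
    Wk m (fun p : ν.cells => p.1.1) (fun p : ν.cells => p.1.2) := by
  induction m with
  | zero =>
    intro ν h
    refine (str_all 0 ν h fun c hc => ?_).wk
    have : 0 < ν.card := Finset.card_pos.2 ⟨c, hc⟩
    omega
  | succ n ih =>
    intro ν h1
    by_cases h2 : ∀ c ∈ ν, c.1 < n + 1
    · exact (str_all _ ν h1 h2).wk
    push Not at h2
    obtain ⟨c, hc, hc'⟩ := h2
    have a3 := card_shift 0 1 ν
    have a4 : (range (n + 1)).card ≤ (ν.cells.filter (fun c => c.1 < 0 ∨ c.2 < 1)).card :=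
      Finset.card_le_card_of_injOn (fun a => (a, 0))
        (fun a ha => by
          simp only [coe_filter, YoungDiagram.mem_cells, Set.mem_ofPred_eq]
          have := mem_range.1 ha
          exact ⟨ν.up_left_mem (i2 := c.1) (j2 := c.2) (by omega) (by omega) hc, by omega⟩)
        (fun a _ b _ h => by simpa using h)
    rw [card_range] at a4
    obtain ⟨μ, m1, m2, m3⟩ := chain (shift 0 1 ν) (ν.card - (n + 1)) (by omega) (n + 1) ν
      (fun c hc => ν.up_left_mem (by omega) (by omega) (mem_shift.1 hc)) (by omega)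
    obtain ⟨e, e1, e2, -⟩ := split μ ν m2 (n + 1) (by omega)
    refine Wk.transport e (Wk.step n _ _ μ.rowLen (fun a => ?_) (fun b => ?_) ?_ ?_)
    · simp only [Function.comp_apply, e1]
      exact YoungDiagram.mem_iff_lt_rowLen.1 a.2
    · exact not_lt.1 fun h => e2 b (YoungDiagram.mem_iff_lt_rowLen.2 h)
    · have key : ∀ p q, (e (Sum.inr p)).1.1 = (e (Sum.inr q)).1.1 →
          ¬ (e (Sum.inr p)).1.2 + 1 ≤ (e (Sum.inr q)).1.2 := fun p q h3 h4 =>
        e2 p (m1 (mem_shift.2 (ν.up_left_mem h3.le h4 (e (Sum.inr q)).2)))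
      intro p q h3
      have k1 := key p q h3
      have k2 := key q p h3.symm
      simp only [Function.comp_apply] at h3
      exact Sum.inr_injective (e.injective (Subtype.ext (Prod.ext h3 (by omega))))
    · have := ih μ (by
        rw [m3]
        have : n + 1 ≤ ν.card := by omega
        zify [this] at h1 ⊢
        linarith)
      convert this using 1 <;> funext a <;> simp [e1]

end Vale.Agent.P197
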