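import Vale.Agent.P197.Lap

/-! Exactness of the complex and the extension lemma. -/

namespace Vale.Agent.P197

open Finset

set_option linter.unusedSectionVars false

variable {P : Type*} [Fintype P] [DecidableEq P] {n : ℕ}

/-- the support condition -/
def Supp (T : Finset P) (k : ℕ) (x : (P → Fin (n + 1)) × Finset (Fin n)) : Prop :=
  (∀ p ∈ T, x.1 p = 0) ∧ cnt x.1 0 = n + 1 + k ∧ x.2.card = k ∧
    ∀ a : Fin n, cnt x.1 a.succ + (if a ∈ x.2 then 1 else 0) = n - a.val

/-- the cochain spaces -/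
def W (T : Finset P) (k : ℕ) : Submodule ℝ (V P n) where
  carrier := {ω | (∀ x, ω x ≠ 0 → Supp T k x) ∧ ∀ a b, a < b → Lop univ a b ω = 0}
  add_mem' := by
    rintro f g ⟨f1, f2⟩ ⟨g1, g2⟩
    refine ⟨fun x hx => ?_, fun a b h => by rw [map_add, f2 a b h, g2 a b h, add_zero]⟩
    by_cases h : f x = 0
    · exact g1 x (by simpa [h] using hx)
    · exact f1 x h
  zero_mem' := ⟨fun x hx => absurd rfl hx, fun a b _ => map_zero _⟩
  smul_mem' := by
    rintro c f ⟨f1, f2⟩
    refine ⟨fun x hx => f1 x (right_ne_zero_of_mul hx), fun a b h => ?_⟩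
    rw [map_smul, f2 a b h, smul_zero]

theorem mem_W {T : Finset P} {k : ℕ} {ω : V P n} :
    ω ∈ W T k ↔ (∀ x, ω x ≠ 0 → Supp T k x) ∧ ∀ a b, a < b → Lop univ a b ω = 0 := Iff.rfl

theorem Lop_univ_eq (T : Finset P) (a b : Fin n) (ω : V P n)
    (h : ∀ x, ω x ≠ 0 → ∀ p ∈ T, x.1 p = 0) : Lop univ a b ω = Lop Tᶜ a b ω := by
  simp only [Lop, LinearMap.add_apply]
  rw [E_univ_eq T 0 _ _ (Fin.succ_ne_zero b) ω h]

theorem del_univ_eq (T : Finset P) (ω : V P n)
    (h : ∀ x, ω x ≠ 0 → ∀ p ∈ T, x.1 p = 0) : del univ ω = del Tᶜ ω := by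
  simp only [del, LinearMap.sum_apply, Module.End.mul_apply]
  refine Finset.sum_congr rfl fun a _ => E_univ_eq T 0 _ _ (Fin.succ_ne_zero a) _ ?_
  intro x hx
  rw [cr_apply] at hx
  split_ifs at hx
  · exact h (x.1, x.2.erase a) (right_ne_zero_of_mul hx)
  · exact absurd rfl hx

theorem del_apply (Q : Finset P) (ω : V P n) (x : (P → Fin (n + 1)) × Finset (Fin n)) :
    del Q ω x = ∑ a : Fin n, ∑ p ∈ Q, if x.1 p = 0 ∧ a ∈ x.2 then
      sg a x.2 * ω (Function.update x.1 p a.succ, x.2.erase a) else 0 := by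
  simp only [del, LinearMap.sum_apply, Module.End.mul_apply, Finset.sum_apply, E_apply, cr_apply,
    ite_and]

theorem cod_apply (Q : Finset P) (ω : V P n) (x : (P → Fin (n + 1)) × Finset (Fin n)) :
    cod Q ω x = ∑ a : Fin n, ∑ p ∈ Q, if x.1 p = a.succ ∧ a ∉ x.2 then
      sg a x.2 * ω (Function.update x.1 p 0, insert a x.2) else 0 := by
  simp only [cod, LinearMap.sum_apply, Module.End.mul_apply, Finset.sum_apply, E_apply, an_apply,
    ite_and, ite_not]

theorem del_mem {T : Finset P} {k : ℕ} {ω : V P n} (h : ω ∈ W T k) :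
    del univ ω ∈ W T (k + 1) := by
  refine ⟨fun x hx => ?_, fun a b hab => ?_⟩
  · rw [del_apply] at hx
    obtain ⟨a, -, ha⟩ := Finset.exists_ne_zero_of_sum_ne_zero hx
    obtain ⟨p, -, hp⟩ := Finset.exists_ne_zero_of_sum_ne_zero ha
    split_ifs at hp with h1
    swap
    · exact absurd rfl hp
    obtain ⟨s1, s2, s3, s4⟩ := h.1 _ (right_ne_zero_of_mul hp)
    simp only at s1 s2 s3 s4
    refine ⟨fun q hq => ?_, ?_, ?_, fun b => ?_⟩
    · have := s1 q hq
      by_cases hqp : q = p
      · rw [hqp, h1.1]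
      · rwa [Function.update_of_ne hqp] at this
    · have := cnt_update x.1 p a.succ 0
      simp only [h1.1, if_true, Fin.succ_ne_zero, if_false] at this
      omega
    · rw [Finset.card_erase_of_mem h1.2] at s3
      have := Finset.card_pos.2 ⟨a, h1.2⟩
      omega
    · have := cnt_update x.1 p a.succ b.succ
      have h4 := s4 b
      simp only [h1.1, (Fin.succ_ne_zero _).symm, if_false, Fin.succ_inj] at this
      simp only [mem_erase] at h4
      by_cases hab : a = b
      · subst hab
        simp only [if_true, ne_eq, not_true, false_and, if_false, h1.2] at this h4 ⊢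
        omega
      · simp only [if_neg hab, ne_eq, Ne.symm hab, not_false_iff, true_and] at this h4
        omega
  · rw [← Module.End.mul_apply, Lop_del, Module.End.mul_apply, h.2 a b hab, map_zero]

theorem cod_mem {T : Finset P} {k : ℕ} {ω : V P n} (h : ω ∈ W T (k + 1)) :
    cod Tᶜ ω ∈ W T k := by
  have hs : ∀ x, cod Tᶜ ω x ≠ 0 → Supp T k x := by
    intro x hx
    rw [cod_apply] at hx
    obtain ⟨a, -, ha⟩ := Finset.exists_ne_zero_of_sum_ne_zero hx
    obtain ⟨p, hpT, hp⟩ := Finset.exists_ne_zero_of_sum_ne_zero ha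
    split_ifs at hp with h1
    swap
    · exact absurd rfl hp
    obtain ⟨s1, s2, s3, s4⟩ := h.1 _ (right_ne_zero_of_mul hp)
    simp only at s1 s2 s3 s4
    refine ⟨fun q hq => ?_, ?_, ?_, fun b => ?_⟩
    · have := s1 q hq
      have hqp : q ≠ p := by
        rintro rfl
        simp [hq] at hpT
      rwa [Function.update_of_ne hqp] at this
    · have := cnt_update x.1 p 0 0
      simp only [h1.1, if_true, Fin.succ_ne_zero, if_false] at this
      omega
    · rw [Finset.card_insert_of_notMem h1.2] at s3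
      omega
    · have := cnt_update x.1 p 0 b.succ
      have h4 := s4 b
      simp only [h1.1, (Fin.succ_ne_zero _).symm, if_false, Fin.succ_inj] at this
      simp only [mem_insert] at h4
      by_cases hab : a = b
      · subst hab
        simp only [if_true, true_or, if_false, h1.2] at this h4 ⊢
        omega
      · simp only [if_neg hab, Ne.symm hab, false_or] at this h4
        omega
  refine ⟨hs, fun a b hab => ?_⟩
  rw [Lop_univ_eq T a b _ (fun x hx => (hs x hx).1), ← Module.End.mul_apply, Lop_cod,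
    Module.End.mul_apply, ← Lop_univ_eq T a b _ (fun x hx => (h.1 x hx).1), h.2 a b hab, map_zero]

theorem lap_inj {T : Finset P} {k : ℕ} (hT : T.card ≤ 2 * (k + 1)) {ω : V P n}
    (h : ω ∈ W T (k + 1))
    (h0 : (del Tᶜ * cod Tᶜ + cod Tᶜ * del Tᶜ : Module.End ℝ (V P n)) ω = 0) : ω = 0 := by
  by_contra hne
  obtain ⟨x, hx⟩ : ∃ x, ω x ≠ 0 := Function.ne_iff.1 hne
  obtain ⟨a, ha, hak⟩ : ∃ a ∈ x.2, k ≤ a.val := by
    by_contra hc
    push Not at hc
    have h1 : x.2.card ≤ (range k).card :=
      Finset.card_le_card_of_injOn (fun a => a.val) (fun a ha => by simpa using hc a ha)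
        (fun a _ b _ hab => Fin.ext hab)
    have h2 := (h.1 x hx).2.2.1
    simp only [card_range] at h1
    omega
  have h1 := lap_pos Tᶜ ω (fun a b hab => by
    rw [← Lop_univ_eq T a b _ (fun x hx => (h.1 x hx).1), h.2 a b hab]) h0 a
  have h2 := sl2 Tᶜ 0 a.succ (an a ω) h1 (fun y hy => by
    rw [an_apply] at hy
    split_ifs at hy with hy1
    · exact absurd rfl hy
    obtain ⟨s1, s2, -, s4⟩ := h.1 _ (right_ne_zero_of_mul hy)
    simp only at s1 s2 s4
    have s5 := s4 a
    simp only [mem_insert, true_or, if_true] at s5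
    have e1 : (Tᶜ.filter (fun p => y.1 p = a.succ)).card ≤ cnt y.1 a.succ :=
      Finset.card_le_card (Finset.filter_subset_filter _ (subset_univ _))
    have e2 : cnt y.1 0 ≤ (Tᶜ.filter (fun p => y.1 p = 0)).card + T.card := by
      refine le_trans (Finset.card_le_card ?_) (Finset.card_union_le _ _)
      intro p hp
      simp only [mem_filter, mem_univ, true_and, mem_union, mem_compl] at hp ⊢
      tauto
    omega)
  have h3 := congrFun h2 (x.1, x.2.erase a)
  simp [an_apply, Finset.insert_erase ha, sg_ne, hx] at h3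

theorem exact_W {T : Finset P} {k : ℕ} (hT : T.card ≤ 2 * (k + 1)) {θ : V P n}
    (h : θ ∈ W T (k + 1)) (h0 : del univ θ = 0) : ∃ ζ ∈ W T k, del univ ζ = θ := by
  have hd : ∀ {k : ℕ} {ω : V P n}, ω ∈ W T k → del univ ω = del Tᶜ ω :=
    fun hω => del_univ_eq T _ (fun x hx => (hω.1 x hx).1)
  have hmaps : ∀ ω ∈ (W T (k + 1) : Submodule ℝ (V P n)),
      (del Tᶜ * cod Tᶜ + cod Tᶜ * del Tᶜ : Module.End ℝ (V P n)) ω ∈ W T (k + 1) := by
    intro ω hω
    simp only [LinearMap.add_apply, Module.End.mul_apply]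
    refine Submodule.add_mem _ ?_ ?_
    · rw [← hd (cod_mem hω)]
      exact del_mem (cod_mem hω)
    · rw [← hd hω]
      exact cod_mem (del_mem hω)
  have hinj : Function.Injective (LinearMap.restrict _ hmaps) := by
    rw [injective_iff_map_eq_zero]
    intro ω hω
    exact Subtype.ext (lap_inj hT ω.2 (congrArg Subtype.val hω))
  obtain ⟨⟨η, hηW⟩, hη⟩ := LinearMap.injective_iff_surjective.1 hinj ⟨θ, h⟩
  have hη' : del Tᶜ (cod Tᶜ η) + cod Tᶜ (del Tᶜ η) = θ := congrArg Subtype.val hη
  have h1 : del Tᶜ (cod Tᶜ (del Tᶜ η)) = 0 := by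
    rw [hd h, ← hη', map_add, ← Module.End.mul_apply, del_del] at h0
    simpa using h0
  have h2 : cod Tᶜ (del Tᶜ η) = 0 := by
    apply ip_self_eq_zero
    rw [← del_adj, h1, ip_zero_right]
  refine ⟨cod Tᶜ η, cod_mem hηW, ?_⟩
  rw [hd (cod_mem hηW), ← hη', h2, add_zero]

/-- a labeling is allowed if its zero set contains no forbidden set -/
def Allowed (L : Finset (Finset P)) (j : P → Fin (n + 1)) : Prop := ∀ T ∈ L, ∃ p ∈ T, j p ≠ 0

theorem del_congr (L : Finset (Finset P)) {f g : V P n}
    (h : ∀ x, Allowed L x.1 → f x = g x) (x : (P → Fin (n + 1)) × Finset (Fin n))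
    (hx : Allowed L x.1) : del univ f x = del univ g x := by
  rw [del_apply, del_apply]
  refine Finset.sum_congr rfl fun a _ => Finset.sum_congr rfl fun p _ => ?_
  rw [h]
  intro T hT
  obtain ⟨q, hq, hq'⟩ := hx T hT
  refine ⟨q, hq, ?_⟩
  by_cases hqp : q = p
  · simp [hqp]
  · simpa [Function.update_of_ne hqp] using hq'

open Classical in
/-- restriction to allowed labelings -/
noncomputable def res (L : Finset (Finset P)) (f : V P n) : V P n :=
  fun x => if Allowed L x.1 then f x else 0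

theorem res_mem (L : Finset (Finset P)) {T : Finset P} {k : ℕ} {f : V P n} (h : f ∈ W T k) :
    res L f ∈ W T k := by
  refine ⟨fun x hx => h.1 x fun h0 => hx (by simp [res, h0]), fun a b hab => ?_⟩
  funext x
  have h1 := congrFun (h.2 a b hab) x
  simp only [Lop, LinearMap.add_apply, Pi.add_apply, E_apply, Module.End.mul_apply, cr_apply,
    an_apply, res, Pi.zero_apply] at h1 ⊢
  have h2 : ∀ p, x.1 p = a.succ →
      (Allowed L (Function.update x.1 p b.succ) ↔ Allowed L x.1) := by
    intro p hp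
    refine forall₂_congr fun T _ => exists_congr fun q => and_congr_right fun _ => ?_
    by_cases hqp : q = p
    · simp [hqp, hp]
    · simp [Function.update_of_ne hqp]
  by_cases hx : Allowed L x.1
  · refine Eq.trans ?_ h1
    simp only [hx, if_true]
    congr 1
    refine Finset.sum_congr rfl fun p _ => ?_
    split_ifs with h3 h4
    · rfl
    · exact absurd ((h2 p h3).2 hx) h4
    · rfl
  · simp only [hx, if_false]
    rw [Finset.sum_eq_zero]
    · simp
    · intro p _
      split_ifs with h3 h4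
      · exact absurd ((h2 p h3).1 h4) hx
      · rfl
      · rfl

theorem W_mono {T T' : Finset P} (h : T ⊆ T') {k : ℕ} {f : V P n} (hf : f ∈ W T' k) :
    f ∈ W T k :=
  ⟨fun x hx => ⟨fun p hp => (hf.1 x hx).1 p (h hp), (hf.1 x hx).2⟩, hf.2⟩

theorem chase (L : Finset (Finset P)) (hL : ∀ T ∈ L, T.card ≤ 2) :
    ∀ (T0 : Finset P) (k : ℕ), T0.card ≤ 2 * k → ∀ ω : V P n, ω ∈ W T0 k →
      (∀ x, Allowed L x.1 → del univ ω x = 0) →
      ∃ ω' ∈ W T0 k, del univ ω' = 0 ∧ ∀ x, Allowed L x.1 → ω' x = ω x := by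
  induction L using Finset.induction_on with
  | empty =>
    intro T0 k _ ω hω h
    exact ⟨ω, hω, funext fun x => h x (by simp [Allowed]), fun _ _ => rfl⟩
  | insert T L hTL ih =>
    intro T0 k hk ω hω h
    have ih' := ih (fun T' hT' => hL T' (mem_insert_of_mem hT'))
    have hsub : ∀ j : P → Fin (n + 1), Allowed (insert T L) j → Allowed L j :=
      fun j hj T' hT' => hj T' (mem_insert_of_mem hT')
    have hcard : (T0 ∪ T).card ≤ 2 * (k + 1) := by
      have := hL T (mem_insert_self _ _)
      have := Finset.card_union_le T0 T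
      omega
    have hθ0 := res_mem L (del_mem hω)
    have hθ : res L (del univ ω) ∈ W (T0 ∪ T) (k + 1) := by
      refine ⟨fun x hx => ⟨fun p hp => ?_, (hθ0.1 x hx).2⟩, hθ0.2⟩
      rcases mem_union.1 hp with hp | hp
      · exact (hθ0.1 x hx).1 p hp
      · by_contra hp'
        apply hx
        unfold res
        split_ifs with h1
        · apply h
          intro T' hT'
          rcases mem_insert.1 hT' with rfl | hT'
          · exact ⟨p, hp, hp'⟩
          · exact h1 T' hT'
        · rfl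
    obtain ⟨θ', a1, a2, a3⟩ := ih' (T0 ∪ T) (k + 1) hcard _ hθ (fun x hx => by
      rw [del_congr L (g := del univ ω) (fun y hy => by simp [res, hy]) x hx,
        ← Module.End.mul_apply, del_del]
      rfl)
    obtain ⟨ζ, z1, z2⟩ := exact_W hcard a1 a2
    obtain ⟨ω', b1, b2, b3⟩ := ih' T0 k hk (ω - ζ)
      (Submodule.sub_mem _ hω (W_mono subset_union_left z1)) (fun x hx => by
        rw [map_sub, z2, Pi.sub_apply, a3 x hx]
        simp [res, hx])
    refine ⟨ω', b1, b2, fun x hx => ?_⟩
    rw [b3 x (hsub _ hx), Pi.sub_apply, sub_eq_self]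
    by_contra h0
    obtain ⟨p, hp, hp'⟩ := hx T (mem_insert_self _ _)
    exact hp' ((z1.1 x h0).1 p (mem_union_right _ hp))

end Vale.Agent.P197
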