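import Vale.Agent.P197.Ext

/-! The extension lemma for natural number labels. -/

namespace Vale.Agent.P197

open Finset

set_option linter.unusedSectionVars false

variable {P : Type*} [Fintype P] [DecidableEq P]

/-- forget the bound on the labels -/
def up {M : ℕ} (j : P → Fin M) : P → ℕ := fun p => (j p).val

theorem up_update {M : ℕ} (j : P → Fin M) (p : P) (b : Fin M) :
    up (Function.update j p b) = Function.update (up j) p b.val :=
  Function.comp_update Fin.val j p b

theorem up_eq_iff {M : ℕ} (j : P → Fin M) (p : P) (a : Fin M) : up j p = a.val ↔ j p = a :=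
  Fin.ext_iff.symm

theorem up_lt {M : ℕ} (j : P → Fin M) (p : P) : up j p < M := (j p).2

theorem cnt_up {M : ℕ} (j : P → Fin M) (a : Fin M) : cnt (up j) a.val = cnt j a := by
  simp only [cnt, up_eq_iff]

theorem cnt_up_ge {M : ℕ} (j : P → Fin M) {a : ℕ} (h : M ≤ a) : cnt (up j) a = 0 := by
  simp only [cnt, card_eq_zero, filter_eq_empty_iff, mem_univ, true_implies]
  intro p
  have := up_lt j p
  omega

theorem extension (n : ℕ) (i : P → ℕ) (hi : ∀ p, i p < n + 1) (ω : (P → ℕ) → ℝ)
    (h1 : ∀ j, ω j ≠ 0 → ∀ a, cnt j a = n + 1 - a)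
    (h2 : ∀ a b, 0 < a → a < b → ∀ j, raise a b ω j = 0) :
    ∃ b : (P → ℕ) → ℝ, IsHW (fun a => n + 1 - a) b ∧
      ∀ j, (∀ p q, j p = 0 → j q = 0 → i p = i q → p = q) → b j = ω j := by
  classical
  let ω0 : V P n := fun x => if x.2 = ∅ then ω (up x.1) else 0
  have hω0 : ω0 ∈ W ∅ 0 := by
    refine ⟨fun x hx => ?_, fun a b hab => ?_⟩
    · simp only [ω0] at hx
      split_ifs at hx with h
      swap
      · exact absurd rfl hx
      refine ⟨by simp, ?_, by simp [h], fun a => ?_⟩
      · rw [← cnt_up, h1 _ hx]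
        simp
      · rw [← cnt_up, h1 _ hx]
        simp [h]
    · funext x
      simp only [Lop, LinearMap.add_apply, Pi.add_apply, E_apply, Module.End.mul_apply, cr_apply,
        an_apply, ω0, Pi.zero_apply, Finset.insert_ne_empty, if_false, mul_zero, ite_self,
        add_zero]
      by_cases hx : x.2 = ∅
      · have := h2 a.succ.val b.succ.val (by simp) (by simpa using hab) (up x.1)
        refine Eq.trans ?_ this
        unfold raise
        refine Finset.sum_congr rfl fun p _ => ?_
        simp only [hx, if_true, up_update, up_eq_iff]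
      · simp [hx]
  let L : Finset (Finset P) := univ.filter (fun T => ∃ p q, p ≠ q ∧ i p = i q ∧ T = {p, q})
  have hL : ∀ T ∈ L, T.card ≤ 2 := by
    intro T hT
    obtain ⟨p, q, -, -, rfl⟩ := (mem_filter.1 hT).2
    exact Finset.card_le_two
  have hA : ∀ j : P → Fin (n + 1), Allowed L j ↔
      ∀ p q, j p = 0 → j q = 0 → i p = i q → p = q := by
    intro j
    constructor
    · intro h p q hp hq hpq
      by_contra hne
      obtain ⟨r, hr, hr'⟩ := h {p, q} (mem_filter.2 ⟨mem_univ _, p, q, hne, hpq, rfl⟩)
      simp only [mem_insert, mem_singleton] at hr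
      rcases hr with rfl | rfl
      · exact hr' hp
      · exact hr' hq
    · intro h T hT
      obtain ⟨p, q, hne, hpq, rfl⟩ := (mem_filter.1 hT).2
      by_contra hc
      push Not at hc
      exact hne (h p q (hc p (by simp)) (hc q (by simp)) hpq)
  obtain ⟨ω', w1, w2, w3⟩ := chase L hL ∅ 0 (by simp) ω0 hω0 (fun x hx => by
    by_contra h0
    have h3 := ((del_mem hω0).1 x h0).2.1
    have h4 : cnt x.1 0 ≤ (range (n + 1)).card :=
      Finset.card_le_card_of_injOn i (fun p _ => by simpa using hi p)
        (fun p hp q hq hpq => (hA _).1 hx p q (by simpa using hp) (by simpa using hq) hpq)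
    simp only [card_range] at h4
    omega)
  let b : (P → ℕ) → ℝ := fun j =>
    if h : ∀ p, j p < n + 1 then ω' (fun p => ⟨j p, h p⟩, ∅) else 0
  have hb : ∀ j : P → Fin (n + 1), b (up j) = ω' (j, ∅) := by
    intro j
    exact dif_pos (up_lt j)
  have hb0 : ∀ j : P → ℕ, (¬ ∀ p, j p < n + 1) → b j = 0 := fun j h => dif_neg h
  refine ⟨b, ⟨fun j hj a => ?_, fun a c hac j => ?_⟩, fun j hj => ?_⟩
  · by_cases h : ∀ p, j p < n + 1
    swap
    · exact absurd (hb0 j h) hj
    obtain ⟨j, rfl⟩ : ∃ j' : P → Fin (n + 1), j = up j' := ⟨fun p => ⟨j p, h p⟩, rfl⟩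
    rw [hb] at hj
    obtain ⟨-, s2, -, s4⟩ := w1.1 _ hj
    rcases a with _ | a
    · exact (cnt_up j 0).trans s2
    · by_cases ha : a < n
      · have := s4 ⟨a, ha⟩
        rw [← cnt_up] at this
        simp only [Fin.val_succ, Finset.notMem_empty, if_false, add_zero] at this
        rw [this]
        simp
      · rw [cnt_up_ge _ (by omega)]
        simp only
        omega
  · by_cases h : (∀ p, j p < n + 1) ∧ c < n + 1
    swap
    · refine Finset.sum_eq_zero fun p _ => ?_
      split_ifs with hp
      · apply hb0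
        intro hc
        apply h
        have h5 := hc p
        simp only [Function.update_self] at h5
        refine ⟨fun q => ?_, h5⟩
        by_cases hq : q = p
        · rw [hq]
          omega
        · simpa [Function.update_of_ne hq] using hc q
      · rfl
    obtain ⟨h, hc⟩ := h
    obtain ⟨j, rfl⟩ : ∃ j' : P → Fin (n + 1), j = up j' := ⟨fun p => ⟨j p, h p⟩, rfl⟩
    obtain ⟨c, rfl⟩ : ∃ c' : Fin n, c = c'.succ.val := ⟨⟨c - 1, by omega⟩, by simp; omega⟩
    rcases a with _ | a
    · have h5 := congrFun w2 (j, {c})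
      rw [del_apply, Finset.sum_eq_single c] at h5
      · refine Eq.trans ?_ h5
        unfold raise
        refine Finset.sum_congr rfl fun p _ => ?_
        rw [← up_update, hb]
        simp [up, sg, eta_self]
      · intro d _ hd
        simp [hd]
      · simp
    · have ha : a < c.val := by simpa using hac
      have h5 := congrFun (w1.2 ⟨a, by omega⟩ c ha) (j, ∅)
      simp only [Lop, LinearMap.add_apply, Pi.add_apply, E_apply, Module.End.mul_apply, cr_apply,
        Finset.notMem_empty, if_false, add_zero, Pi.zero_apply] at h5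
      refine Eq.trans ?_ h5
      unfold raise
      refine Finset.sum_congr rfl fun p _ => ?_
      rw [← up_update, hb]
      exact if_congr (up_eq_iff j p (Fin.succ ⟨a, by omega⟩)) rfl rfl
  · by_cases h : ∀ p, j p < n + 1
    · obtain ⟨j, rfl⟩ : ∃ j' : P → Fin (n + 1), j = up j' := ⟨fun p => ⟨j p, h p⟩, rfl⟩
      rw [hb, w3 _ ((hA _).2 fun p q hp hq => hj p q ((up_eq_iff j p 0).2 hp)
        ((up_eq_iff j q 0).2 hq))]
      simp [ω0]
    · rw [hb0 j h]
      by_contra h0
      exact h (lt_of_cnt (h1 j (Ne.symm h0)))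

end Vale.Agent.P197
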