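import Vale.Agent.P197.Basic

/-! Young symmetrizer sums and their factorization. -/

namespace Vale.Agent.P197

open Equiv Finset

set_option linter.unusedSectionVars false

variable {P : Type*} [Fintype P] [DecidableEq P]

/-- the Young symmetrizer sum -/
noncomputable def YS (R C : P → ℕ) (G : Perm P → ℝ) : ℝ :=
  ∑ c : Perm P, ∑ r : Perm P, if (∀ p, C (c p) = C p) ∧ (∀ p, R (r p) = R p) then
    ((Perm.sign c : ℤ) : ℝ) * G (c * r) else 0

theorem YS_transport {Q : Type*} [Fintype Q] [DecidableEq Q] (e : Q ≃ P) (R C : P → ℕ)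
    (G : Perm P → ℝ) : YS (R ∘ e) (C ∘ e) (fun g => G (e.permCongr g)) = YS R C G := by
  unfold YS
  rw [← e.permCongr.sum_comp]
  refine Finset.sum_congr rfl fun c _ => ?_
  rw [← e.permCongr.sum_comp]
  refine Finset.sum_congr rfl fun r _ => ?_
  have h1 : ∀ (S : P → ℕ) (c : Perm Q),
      (∀ p, (S ∘ e) (c p) = (S ∘ e) p) ↔ ∀ p, S (e.permCongr c p) = S p := by
    intro S c
    constructor
    · intro h p
      simpa using h (e.symm p)
    · intro h p
      simpa using h (e p)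
  simp only [h1, Perm.sign_permCongr, e.permCongr_mul]

theorem YS_sum_mul {ι : Type*} (s : Finset ι) (R C : P → ℕ) (G : ι → Perm P → ℝ) (x : ι → ℝ) :
    YS R C (fun g => ∑ k ∈ s, G k g * x k) = ∑ k ∈ s, YS R C (G k) * x k := by
  unfold YS
  simp only [Finset.sum_mul]
  rw [Finset.sum_comm (s := s)]
  refine Finset.sum_congr rfl fun c _ => ?_
  rw [Finset.sum_comm (s := s)]
  refine Finset.sum_congr rfl fun r _ => ?_
  split_ifs
  · simp [Finset.mul_sum, mul_assoc]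
  · simp

theorem exists_of_YS_ne {R C : P → ℕ} {G : Perm P → ℝ} (h : YS R C G ≠ 0) : ∃ g, G g ≠ 0 := by
  by_contra h'
  push Not at h'
  apply h
  simp [YS, h']

variable {A B : Type*} [Fintype A] [Fintype B] [DecidableEq A] [DecidableEq B]

theorem exists_sumCongr_of_inr {g : Perm (A ⊕ B)} (h : ∀ b, ∃ b', g (Sum.inr b) = Sum.inr b') :
    ∃ g1 g2, g = Perm.sumCongr g1 g2 := by
  have h1 : Set.MapsTo g (Set.range Sum.inr) (Set.range Sum.inr) := by
    rintro _ ⟨b, rfl⟩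
    obtain ⟨b', hb⟩ := h b
    exact ⟨b', hb.symm⟩
  obtain ⟨⟨g1, g2⟩, hg⟩ := Perm.mem_sumCongrHom_range_of_perm_mapsTo_inl
    ((Perm.perm_mapsTo_inl_iff_mapsTo_inr g).2 h1)
  exact ⟨g1, g2, hg.symm⟩

theorem pres (w : A ⊕ B → ℤ) (h1 : ∀ a, w (Sum.inl a) < 0) (h2 : ∀ b, 0 ≤ w (Sum.inr b))
    (g : Perm (A ⊕ B)) (h : ∑ b, w (Sum.inr b) ≤ ∑ b, w (g (Sum.inr b))) :
    ∃ g1 g2, g = Perm.sumCongr g1 g2 := by
  apply exists_sumCongr_of_inr
  by_contra hc
  push Not at hc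
  obtain ⟨b0, hb0⟩ := hc
  have h3 : w (g (Sum.inr b0)) < 0 := by
    rcases hg : g (Sum.inr b0) with a | b
    · exact h1 a
    · exact absurd hg (hb0 b)
  have h4 : ∑ b, w (g (Sum.inr b)) < ∑ b, max (w (g (Sum.inr b))) 0 :=
    Finset.sum_lt_sum (fun b _ => le_max_left _ _) ⟨b0, mem_univ _, by omega⟩
  have h5 : ∑ p, max (w (g p)) 0 = ∑ p, max (w p) 0 := 
    Equiv.sum_comp g (fun p => max (w p) 0)
  rw [Fintype.sum_sum_type, Fintype.sum_sum_type] at h5
  have h6 : ∑ a, max (w (Sum.inl a)) 0 = 0 :=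
    Finset.sum_eq_zero fun a _ => by have := h1 a; omega
  have h7 : ∑ b, max (w (Sum.inr b)) 0 = ∑ b, w (Sum.inr b) :=
    Finset.sum_congr rfl fun b _ => by have := h2 b; omega
  have h8 : 0 ≤ ∑ a, max (w (g (Sum.inl a))) 0 := Finset.sum_nonneg fun a _ => le_max_right _ _
  omega

theorem sum_perm_sum (H : Perm (A ⊕ B) → ℝ)
    (h : ∀ g, H g ≠ 0 → ∃ g1 g2, g = Perm.sumCongr g1 g2) :
    ∑ g, H g = ∑ g1 : Perm A, ∑ g2 : Perm B, H (Perm.sumCongr g1 g2) := by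
  rw [← Finset.sum_product']
  symm
  refine Finset.sum_of_injOn (fun x : Perm A × Perm B => Perm.sumCongr x.1 x.2) ?_ (by simp) ?_
    (by simp)
  · intro x _ y _ hxy
    exact Perm.sumCongrHom_injective hxy
  · intro g _ hg
    by_contra h0
    obtain ⟨g1, g2, rfl⟩ := h g h0
    exact hg ⟨(g1, g2), by simp, rfl⟩

theorem YS_fact (R C : A ⊕ B → ℕ) (h : ℕ → ℕ) (h1 : ∀ a, C (Sum.inl a) < h (R (Sum.inl a)))
    (h2 : ∀ b, h (R (Sum.inr b)) ≤ C (Sum.inr b)) (G : Perm (A ⊕ B) → ℝ) (G1 : Perm A → ℝ)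
    (G2 : Perm B → ℝ) (hG : ∀ g, G g ≠ 0 → ∃ g1 g2, g = Perm.sumCongr g1 g2)
    (hG' : ∀ g1 g2, G (Perm.sumCongr g1 g2) = G1 g1 * G2 g2) :
    YS R C G = YS (R ∘ Sum.inl) (C ∘ Sum.inl) G1 * YS (R ∘ Sum.inr) (C ∘ Sum.inr) G2 := by
  have key : ∀ c r : Perm (A ⊕ B), (∀ p, C (c p) = C p) → (∀ p, R (r p) = R p) →
      G (c * r) ≠ 0 → (∃ g1 g2, c = Perm.sumCongr g1 g2) ∧ ∃ g1 g2, r = Perm.sumCongr g1 g2 := by
    intro c r hc hr h0
    obtain ⟨g1, g2, hg⟩ := hG _ h0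
    have hr' : ∃ g1 g2, r = Perm.sumCongr g1 g2 := by
      refine pres (fun p => (C p : ℤ) - h (R p)) (fun a => by have := h1 a; omega)
        (fun b => by have := h2 b; omega) r (le_of_eq ?_)
      simp only [Finset.sum_sub_distrib, hr]
      congr 1
      have : ∀ b, C (r (Sum.inr b)) = C (Sum.inr (g2 b)) := by
        intro b
        rw [← hc (r _), ← Perm.mul_apply, hg]
        simp
      simp only [this]
      exact (Equiv.sum_comp g2 (fun b => (C (Sum.inr b) : ℤ))).symm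
    refine ⟨?_, hr'⟩
    obtain ⟨r1, r2, rfl⟩ := hr'
    refine ⟨g1 * r1⁻¹, g2 * r2⁻¹, ?_⟩
    rw [← Perm.sumCongr_mul, ← hg, mul_assoc, Perm.sumCongr_mul]
    simp
  unfold YS
  rw [sum_perm_sum]
  · rw [Finset.sum_mul_sum]
    refine Finset.sum_congr rfl fun c1 _ => Finset.sum_congr rfl fun c2 _ => ?_
    rw [sum_perm_sum]
    · rw [Finset.sum_mul_sum]
      refine Finset.sum_congr rfl fun r1 _ => Finset.sum_congr rfl fun r2 _ => ?_
      simp only [Sum.forall, Perm.sumCongr_apply, Sum.map_inl, Sum.map_inr, Function.comp_apply,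
        Perm.sumCongr_mul, hG', Perm.sign_sumCongr]
      by_cases a1 : ∀ a, C (Sum.inl (c1 a)) = C (Sum.inl a) <;>
      by_cases a2 : ∀ a, C (Sum.inr (c2 a)) = C (Sum.inr a) <;>
      by_cases a3 : ∀ a, R (Sum.inl (r1 a)) = R (Sum.inl a) <;>
      by_cases a4 : ∀ a, R (Sum.inr (r2 a)) = R (Sum.inr a) <;>
      simp [a1, a2, a3, a4]
      ring
    · intro r hr
      split_ifs at hr with hh
      · exact (key _ r hh.1 hh.2 (right_ne_zero_of_mul hr)).2
      · exact absurd rfl hr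
  · intro c hc
    obtain ⟨r, -, hr⟩ := Finset.exists_ne_zero_of_sum_ne_zero hc
    split_ifs at hr with hh
    · exact (key _ r hh.1 hh.2 (right_ne_zero_of_mul hr)).1
    · exact absurd rfl hr

end Vale.Agent.P197
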