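import Vale.Agent.P197.Ops

/-! Fermions and the Koszul type complex. -/

namespace Vale.Agent.P197

open Finset

set_option linter.unusedSectionVars false

section car

variable {X A : Type*} [Fintype X] [Fintype A] [LinearOrder A]

/-- ordering sign -/
noncomputable def eta (b a : A) : ℝ := if b < a then -1 else 1

/-- Jordan Wigner sign -/
noncomputable def sg (a : A) (s : Finset A) : ℝ := ∏ b ∈ s, eta b a

theorem eta_self (a : A) : eta a a = 1 := by simp [eta]

theorem eta_sq (b a : A) : eta b a * eta b a = 1 := by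
  unfold eta
  split_ifs <;> simp

theorem eta_anti {a b : A} (h : a ≠ b) : eta b a = - eta a b := by
  unfold eta
  rcases lt_or_gt_of_ne h with h1 | h1
  · simp [h1, h1.not_gt]
  · simp [h1, h1.not_gt]

theorem sg_sq (a : A) (s : Finset A) : sg a s * sg a s = 1 := by
  unfold sg
  rw [← Finset.prod_mul_distrib]
  simp [eta_sq]

theorem sg_ne (a : A) (s : Finset A) : sg a s ≠ 0 := by
  intro h
  have := sg_sq a s
  simp [h] at this

theorem sg_insert (a : A) {b : A} {s : Finset A} (h : b ∉ s) :
    sg a (insert b s) = eta b a * sg a s := Finset.prod_insert h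

theorem sg_erase (a : A) {b : A} {s : Finset A} (h : b ∈ s) :
    sg a (s.erase b) = eta b a * sg a s := by
  unfold sg
  rw [← Finset.mul_prod_erase s _ h, ← mul_assoc, eta_sq, one_mul]

/-- creation operator -/
noncomputable def cr (a : A) : Module.End ℝ (X × Finset A → ℝ) where
  toFun f x := if a ∈ x.2 then sg a x.2 * f (x.1, x.2.erase a) else 0
  map_add' f g := by
    funext x
    simp only [Pi.add_apply]
    split_ifs
    · ring
    · simp
  map_smul' c f := by
    funext x
    simp only [Pi.smul_apply, RingHom.id_apply, smul_eq_mul]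
    split_ifs
    · ring
    · simp

/-- annihilation operator -/
noncomputable def an (a : A) : Module.End ℝ (X × Finset A → ℝ) where
  toFun f x := if a ∈ x.2 then 0 else sg a x.2 * f (x.1, insert a x.2)
  map_add' f g := by
    funext x
    simp only [Pi.add_apply]
    split_ifs
    · simp
    · ring
  map_smul' c f := by
    funext x
    simp only [Pi.smul_apply, RingHom.id_apply, smul_eq_mul]
    split_ifs
    · simp
    · ring

theorem cr_apply (a : A) (f : X × Finset A → ℝ) (x : X × Finset A) :
    cr a f x = if a ∈ x.2 then sg a x.2 * f (x.1, x.2.erase a) else 0 := rfl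

theorem an_apply (a : A) (f : X × Finset A → ℝ) (x : X × Finset A) :
    an a f x = if a ∈ x.2 then 0 else sg a x.2 * f (x.1, insert a x.2) := rfl

theorem cr_adj (a : A) : Adj (cr a : Module.End ℝ (X × Finset A → ℝ)) (an a) := by
  intro f g
  have h0 : ∀ x : X × Finset A, an a f x * g x =
      if a ∉ x.2 then sg a x.2 * f (x.1, insert a x.2) * g x else 0 := by
    intro x
    rw [an_apply]
    split_ifs <;> simp
  simp only [ip, cr_apply, h0, mul_ite, mul_zero]
  rw [← Finset.sum_filter, ← Finset.sum_filter]
  refine Finset.sum_nbij' (fun x => (x.1, x.2.erase a)) (fun x => (x.1, insert a x.2))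
    (by simp) (by simp) ?_ ?_ ?_
  · intro x hx
    simp only [mem_filter, mem_univ, true_and] at hx
    simp [hx]
  · intro x hx
    simp only [mem_filter, mem_univ, true_and] at hx
    simp [hx]
  · intro x hx
    simp only [mem_filter, mem_univ, true_and] at hx
    simp only [sg_erase a hx, eta_self, one_mul, Finset.insert_erase hx]
    ring

theorem cr_cr (a b : A) :
    (cr a * cr b : Module.End ℝ (X × Finset A → ℝ)) = - (cr b * cr a) := by
  refine LinearMap.ext fun f => funext fun x => ?_
  simp only [Module.End.mul_apply, cr_apply, LinearMap.neg_apply, Pi.neg_apply, mem_erase]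
  by_cases hab : a = b
  · subst hab
    simp
  · by_cases ha : a ∈ x.2 <;> by_cases hb : b ∈ x.2 <;> simp [ha, hb, hab, Ne.symm hab]
    rw [sg_erase _ ha, sg_erase _ hb, eta_anti hab, Finset.erase_right_comm]
    ring

theorem an_an (a b : A) :
    (an a * an b : Module.End ℝ (X × Finset A → ℝ)) = - (an b * an a) := by
  refine LinearMap.ext fun f => funext fun x => ?_
  simp only [Module.End.mul_apply, an_apply, LinearMap.neg_apply, Pi.neg_apply, mem_insert]
  by_cases hab : a = b
  · subst hab
    simp
  · by_cases ha : a ∈ x.2 <;> by_cases hb : b ∈ x.2 <;> simp [ha, hb, hab, Ne.symm hab]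
    rw [sg_insert _ ha, sg_insert _ hb, eta_anti hab, Finset.insert_comm]
    ring

theorem an_cr (a b : A) :
    (an a * cr b : Module.End ℝ (X × Finset A → ℝ)) =
      (if a = b then 1 else 0) - cr b * an a := by
  refine LinearMap.ext fun f => funext fun x => ?_
  by_cases hab : a = b
  · subst hab
    simp only [Module.End.mul_apply, an_apply, cr_apply, LinearMap.sub_apply, Pi.sub_apply,
      if_true, Module.End.one_apply]
    by_cases ha : a ∈ x.2
    · simp [ha, sg_erase _ ha, eta_self, ← mul_assoc, sg_sq]
    · simp [ha, sg_insert _ ha, eta_self, ← mul_assoc, sg_sq]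
  · simp only [Module.End.mul_apply, an_apply, cr_apply, LinearMap.sub_apply, Pi.sub_apply,
      if_neg hab, mem_insert, mem_erase, LinearMap.zero_apply, Pi.zero_apply]
    by_cases ha : a ∈ x.2 <;> by_cases hb : b ∈ x.2 <;> simp [ha, hb, hab, Ne.symm hab]
    rw [sg_insert _ ha, sg_erase _ hb, eta_anti hab, Finset.erase_insert_of_ne hab]
    ring

end car

section ring

variable {R : Type*} [Ring R]

theorem ring_dd (x y c d : R) (hxy : x * y = y * x) (hy : y * c = c * y) (hx : x * d = d * x)
    (hcd : c * d = - (d * c)) : x * c * (y * d) = - (y * d * (x * c)) := by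
  calc x * c * (y * d) = x * (c * y) * d := by noncomm_ring
    _ = (x * y) * (c * d) := by rw [← hy]; noncomm_ring
    _ = - (y * (x * d) * c) := by rw [hxy, hcd]; noncomm_ring
    _ = _ := by rw [hx]; noncomm_ring

theorem ring_Ld (z x a b c u v : R) (h1 : z * x = x * z + (0 - u)) (h2 : x * a = a * x)
    (h3 : x * b = b * x) (h4 : z * c = c * z) (h5 : c * a = - (a * c))
    (h6 : b * c = v - c * b) :
    (z + a * b) * (x * c) - x * c * (z + a * b) = x * a * v - u * c := by
  have e2 : a * b * (x * c) = x * (a * (b * c)) := by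
    calc a * b * (x * c) = a * (b * x) * c := by noncomm_ring
      _ = (a * x) * b * c := by rw [← h3]; noncomm_ring
      _ = _ := by rw [← h2]; noncomm_ring
  have e3 : x * c * z = x * z * c := by rw [mul_assoc, ← h4, mul_assoc]
  have e4 : x * c * (a * b) = - (x * (a * (c * b))) := by
    calc x * c * (a * b) = x * (c * a) * b := by noncomm_ring
      _ = _ := by rw [h5]; noncomm_ring
  rw [add_mul, mul_add, e2, e3, e4, h6, ← mul_assoc, h1]
  noncomm_ring

theorem ring_Lc (z x a b c u v : R) (h1 : z * x = x * z + (u - 0)) (h2 : x * a = a * x)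
    (h3 : x * b = b * x) (h4 : z * c = c * z) (h5 : b * c = - (c * b))
    (h6 : c * a = v - a * c) :
    (z + a * b) * (x * c) - x * c * (z + a * b) = u * c - x * v * b := by
  have e2 : a * b * (x * c) = - (x * (a * (c * b))) := by
    calc a * b * (x * c) = a * (b * x) * c := by noncomm_ring
      _ = (a * x) * (b * c) := by rw [← h3]; noncomm_ring
      _ = _ := by rw [← h2, h5]; noncomm_ring
  have e3 : x * c * z = x * z * c := by rw [mul_assoc, ← h4, mul_assoc]
  have e4 : x * c * (a * b) = x * (c * a) * b := by noncomm_ring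
  rw [add_mul, mul_add, e2, e3, e4, h6, ← mul_assoc, h1]
  noncomm_ring

theorem ring_off (x y a b u : R) (h1 : x * y = y * x + (0 - u)) (h2 : y * a = a * y)
    (h3 : x * b = b * x) (h4 : b * a = 0 - a * b) :
    (x * a) * (y * b) + (y * b) * (x * a) = - (u * (a * b)) := by
  calc (x * a) * (y * b) + (y * b) * (x * a) = x * (a * y) * b + y * (b * x) * a := by
        noncomm_ring
    _ = (x * y) * (a * b) + y * x * (b * a) := by
      rw [← h2, ← h3]
      noncomm_ring
    _ = _ := by
      rw [h1, h4]
      noncomm_ring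

end ring

variable {P : Type*} [Fintype P] [DecidableEq P] {n : ℕ}

/-- the ambient space -/
abbrev V (P : Type*) (n : ℕ) := (P → Fin (n + 1)) × Finset (Fin n) → ℝ

theorem E_cr (Q : Finset P) (a b : Fin (n + 1)) (c : Fin n) :
    (E Q a b * cr c : Module.End ℝ (V P n)) = cr c * E Q a b := by
  refine LinearMap.ext fun f => funext fun x => ?_
  simp only [Module.End.mul_apply, cr_apply, E_apply]
  split_ifs
  · rw [Finset.mul_sum]
    simp
  · simp

theorem E_an (Q : Finset P) (a b : Fin (n + 1)) (c : Fin n) :
    (E Q a b * an c : Module.End ℝ (V P n)) = an c * E Q a b := by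
  refine LinearMap.ext fun f => funext fun x => ?_
  simp only [Module.End.mul_apply, an_apply, E_apply]
  split_ifs
  · simp
  · rw [Finset.mul_sum]
    simp

/-- the differential -/
noncomputable def del (Q : Finset P) : Module.End ℝ (V P n) := ∑ a : Fin n, E Q 0 a.succ * cr a

/-- the codifferential -/
noncomputable def cod (Q : Finset P) : Module.End ℝ (V P n) := ∑ a : Fin n, E Q a.succ 0 * an a

/-- the raising operators of the smaller Lie algebra -/
noncomputable def Lop (Q : Finset P) (a b : Fin n) : Module.End ℝ (V P n) :=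
  E Q a.succ b.succ + cr a * an b

theorem XY_adj (Q : Finset P) (a : Fin n) :
    Adj (E Q 0 a.succ * cr a : Module.End ℝ (V P n)) (E Q a.succ 0 * an a) := by
  rw [E_an]
  exact (E_adj Q _ _).mul (cr_adj a)

theorem del_adj (Q : Finset P) : Adj (del Q : Module.End ℝ (V P n)) (cod Q) :=
  Adj.sum _ fun a _ => XY_adj Q a

theorem del_del (Q : Finset P) : (del Q * del Q : Module.End ℝ (V P n)) = 0 := by
  have h : (del Q * del Q : Module.End ℝ (V P n)) = - (del Q * del Q) := by
    unfold del
    rw [Finset.sum_mul_sum]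
    nth_rewrite 2 [Finset.sum_comm]
    simp only [← Finset.sum_neg_distrib]
    refine Finset.sum_congr rfl fun a _ => Finset.sum_congr rfl fun b _ => ?_
    have h1 := E_comm (S := Finset (Fin n)) Q 0 a.succ 0 b.succ
    simp only [Fin.succ_ne_zero, if_false, sub_self, add_zero] at h1
    exact ring_dd _ _ _ _ h1 (E_cr _ _ _ _) (E_cr _ _ _ _) (cr_cr _ _)
  have h2 : (2 : ℝ) • (del Q * del Q : Module.End ℝ (V P n)) = 0 := by
    rw [two_smul]
    exact add_eq_zero_iff_eq_neg.2 h
  simpa using h2

theorem Lop_del (Q : Finset P) (a b : Fin n) :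
    (Lop Q a b * del Q : Module.End ℝ (V P n)) = del Q * Lop Q a b := by
  rw [← sub_eq_zero]
  unfold del Lop
  rw [Finset.mul_sum, Finset.sum_mul, ← Finset.sum_sub_distrib]
  have : ∀ c : Fin n, ((E Q a.succ b.succ + cr a * an b) * (E Q 0 c.succ * cr c) -
      E Q 0 c.succ * cr c * (E Q a.succ b.succ + cr a * an b) : Module.End ℝ (V P n)) =
      (if b = c then E Q 0 b.succ * cr a else 0) - (if c = a then E Q 0 b.succ * cr a else 0) := by
    intro c
    have h1 := E_comm (S := Finset (Fin n)) Q a.succ b.succ 0 c.succ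
    simp only [Fin.succ_ne_zero, if_false, Fin.succ_inj] at h1
    rw [ring_Ld _ _ _ _ _ _ _ h1 (E_cr _ _ _ _) (E_an _ _ _ _) (E_cr _ _ _ _) (cr_cr _ _)
      (an_cr _ _)]
    congr 1
    · split_ifs with hb
      · rw [hb, mul_one]
      · rw [mul_zero]
    · split_ifs with hb
      · rw [hb]
      · rw [zero_mul]
  simp only [this, Finset.sum_sub_distrib]
  simp

theorem Lop_cod (Q : Finset P) (a b : Fin n) :
    (Lop Q a b * cod Q : Module.End ℝ (V P n)) = cod Q * Lop Q a b := by
  rw [← sub_eq_zero]
  unfold cod Lop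
  rw [Finset.mul_sum, Finset.sum_mul, ← Finset.sum_sub_distrib]
  have : ∀ c : Fin n, ((E Q a.succ b.succ + cr a * an b) * (E Q c.succ 0 * an c) -
      E Q c.succ 0 * an c * (E Q a.succ b.succ + cr a * an b) : Module.End ℝ (V P n)) =
      (if b = c then E Q a.succ 0 * an b else 0) - (if c = a then E Q a.succ 0 * an b else 0) := by
    intro c
    have h1 := E_comm (S := Finset (Fin n)) Q a.succ b.succ c.succ 0
    simp only [(Fin.succ_ne_zero _).symm, if_false, Fin.succ_inj] at h1
    rw [ring_Lc _ _ _ _ _ _ _ h1 (E_cr _ _ _ _) (E_an _ _ _ _) (E_an _ _ _ _) (an_an _ _)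
      (an_cr _ _)]
    congr 1
    · split_ifs with hb
      · rw [hb]
      · rw [zero_mul]
    · split_ifs with hb
      · rw [hb, mul_one]
      · rw [mul_zero, zero_mul]
  simp only [this, Finset.sum_sub_distrib]
  simp

theorem lap_pos (Q : Finset P) (ω : V P n) (hw : ∀ a b, a < b → Lop Q a b ω = 0)
    (h : (del Q * cod Q + cod Q * del Q : Module.End ℝ (V P n)) ω = 0) (a : Fin n) :
    E Q a.succ 0 (an a ω) = 0 := by
  let t : Fin n → Fin n → ℝ := fun a b =>
    ip ω (((E Q 0 a.succ * cr a) * (E Q b.succ 0 * an b) +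
      (E Q b.succ 0 * an b) * (E Q 0 a.succ * cr a) : Module.End ℝ (V P n)) ω)
  have hsum : ∑ a, ∑ b, t a b = 0 := by
    have h0 : ip ω ((del Q * cod Q + cod Q * del Q : Module.End ℝ (V P n)) ω) = 0 := by
      rw [h, ip_zero_right]
    rw [← h0]
    unfold del cod
    rw [Finset.sum_mul_sum, Finset.sum_mul_sum]
    nth_rewrite 3 [Finset.sum_comm]
    simp only [← Finset.sum_add_distrib, LinearMap.sum_apply, ip_sum_right, t]
  have hdiag : ∀ a, t a a = ip ((E Q a.succ 0 * an a : Module.End ℝ (V P n)) ω)
      ((E Q a.succ 0 * an a : Module.End ℝ (V P n)) ω) +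
      ip ((E Q 0 a.succ * cr a : Module.End ℝ (V P n)) ω)
      ((E Q 0 a.succ * cr a : Module.End ℝ (V P n)) ω) := by
    intro a
    simp only [t, LinearMap.add_apply, ip_add_right]
    rw [(XY_adj Q a).norm, (XY_adj Q a).symm.norm]
  have hnn : ∀ a b, 0 ≤ t a b := by
    intro a b
    by_cases hab : a = b
    · subst hab
      rw [hdiag]
      exact add_nonneg (ip_self_nonneg _) (ip_self_nonneg _)
    · have h1 := E_comm (S := Finset (Fin n)) Q 0 a.succ b.succ 0
      simp only [Fin.succ_inj, if_neg hab, if_true] at h1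
      have h2 : ((E Q 0 a.succ * cr a) * (E Q b.succ 0 * an b) +
          (E Q b.succ 0 * an b) * (E Q 0 a.succ * cr a) : Module.End ℝ (V P n)) =
          - (E Q b.succ a.succ * (cr a * an b)) := by
        refine ring_off _ _ _ _ _ h1 (E_cr _ _ _ _) (E_an _ _ _ _) ?_
        rw [an_cr, if_neg (Ne.symm hab)]
      simp only [t]
      rw [h2]
      rcases lt_or_gt_of_ne hab with h3 | h3
      · have h4 := hw a b h3
        simp only [Lop, LinearMap.add_apply] at h4
        rw [LinearMap.neg_apply, Module.End.mul_apply, ← map_neg,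
          ← eq_neg_of_add_eq_zero_left h4, E_adj]
        exact ip_self_nonneg _
      · have h4 := hw b a h3
        simp only [Lop, LinearMap.add_apply] at h4
        have h5 : (E Q b.succ a.succ * (cr a * an b) : Module.End ℝ (V P n)) =
            (cr a * an b) * E Q b.succ a.succ := by
          rw [← mul_assoc, E_cr, mul_assoc, E_an, mul_assoc]
        rw [h5, LinearMap.neg_apply, Module.End.mul_apply, ← map_neg,
          ← eq_neg_of_add_eq_zero_right h4, (cr_adj a).mul (cr_adj b).symm]
        exact ip_self_nonneg _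
  have h1 := (Finset.sum_eq_zero_iff_of_nonneg
    (fun a _ => Finset.sum_nonneg fun b _ => hnn a b)).1 hsum a (mem_univ _)
  have h2 := (Finset.sum_eq_zero_iff_of_nonneg (fun b _ => hnn a b)).1 h1 a (mem_univ _)
  rw [hdiag] at h2
  have h3 := ip_self_nonneg ((E Q a.succ 0 * an a : Module.End ℝ (V P n)) ω)
  have h4 := ip_self_nonneg ((E Q 0 a.succ * cr a : Module.End ℝ (V P n)) ω)
  exact ip_self_eq_zero (f := (E Q a.succ 0 * an a : Module.End ℝ (V P n)) ω) (by linarith)

end Vale.Agent.P197
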