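import Vale.Agent.P197.Defs
import Vale.Agent.P197.Cap
import Vale.Agent.P197.Diagram

/-! Saxl's conjecture. -/

namespace Vale.Agent.P197

open Equiv Finset

theorem tabloidRep_apply {n : ℕ} (σ : Perm (Fin n)) (v : (Fin n → ℕ) →₀ ℂ) (i : Fin n → ℕ) :
    tabloidRep n σ v i = v (i ∘ σ) := by
  have h1 : Function.Injective (fun r : Fin n → ℕ => r ∘ ⇑σ⁻¹) :=
    fun r s h => σ⁻¹.surjective.injective_comp_right h
  have h2 := Finsupp.mapDomain_apply h1 v (i ∘ σ)
  have h3 : (i ∘ ⇑σ) ∘ ⇑σ⁻¹ = i := by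
    funext p
    simp
  simp only [h3] at h2
  exact h2

theorem polytabloid_apply {n : ℕ} {μ : YoungDiagram} (T : Fin n ≃ μ.cells) (i : Fin n → ℕ) :
    polytabloid T i = ((D (fun p => (T p).1) i (fun p => (T p).1.2) : ℝ) : ℂ) := by
  rw [D_eq_sum]
  unfold polytabloid
  rw [Finsupp.finsetSum_apply, Finset.sum_filter, Complex.ofReal_sum]
  refine Finset.sum_congr rfl fun σ _ => ?_
  rw [Finsupp.smul_apply, tabloidRep_apply, Finsupp.single_apply]
  have key : (∀ q, (i (σ q), (T (σ q)).1.2) = (T q).1) ↔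
      (∀ p, (T (σ p)).1.2 = (T p).1.2) ∧ (fun p => (T p).1.1) = i ∘ σ := by
    simp only [Prod.ext_iff, forall_and, funext_iff, Function.comp_apply]
    rw [and_comm]
    exact and_congr_right fun _ => forall_congr' fun _ => eq_comm
  split_ifs with h1 h2 h3 h3 h3
  · simp
  · exact absurd (key.2 ⟨h1, h2⟩) h3
  · exact absurd (key.1 h3).2 h2
  · simp
  · exact absurd (key.1 h3).1 h1
  · simp

theorem exists_lift {N m : ℕ} {f : (Fin N → ℕ) → ℝ} (hf : IsHW (fun a => m - a) f) :
    ∃ v : (spechtSub N (staircase m)).toSubmodule, ∀ i, v.1 i = (f i : ℂ) := by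
  have h := cap hf
  clear hf
  induction h using Submodule.span_induction with
  | mem x hx =>
    obtain ⟨T, h1, h2, rfl⟩ := hx
    have h3 : ∀ c : ℕ × ℕ, c ∈ (staircase m).cells ↔ c.1 + c.2 < m := by
      intro c
      simp only [staircase, mem_filter, mem_product, mem_range]
      omega
    let T' : Fin N ≃ (staircase m).cells := Equiv.ofBijective
      (fun p => ⟨T p, (h3 _).2 ((h2 _).1 ⟨p, rfl⟩)⟩)
      ⟨fun p q hpq => h1 (congrArg Subtype.val hpq), fun c => by
        obtain ⟨p, hp⟩ := (h2 c.1).2 ((h3 _).1 c.2)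
        exact ⟨p, Subtype.ext hp⟩⟩
    exact ⟨⟨polytabloid T', Submodule.subset_span ⟨T', rfl⟩⟩, fun i => polytabloid_apply T' i⟩
  | zero => exact ⟨0, fun i => by simp⟩
  | add x y _ _ hx hy =>
    obtain ⟨v, hv⟩ := hx
    obtain ⟨w, hw⟩ := hy
    exact ⟨v + w, fun i => by simp [hv, hw]⟩
  | smul a x _ hx =>
    obtain ⟨v, hv⟩ := hx
    exact ⟨(a : ℂ) • v, fun i => by simp [hv]⟩

theorem specht_apply {n : ℕ} {μ : YoungDiagram} (g : Perm (Fin n))
    (v : (spechtSub n μ).toSubmodule) (i : Fin n → ℕ) : (specht n μ g v).1 i = v.1 (i ∘ g) :=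
  tabloidRep_apply g v.1 i

/-- evaluation at a labeling -/
noncomputable def ev {n : ℕ} (μ : YoungDiagram) (i : Fin n → ℕ) :
    (spechtSub n μ).toSubmodule →ₗ[ℂ] ℂ :=
  (Finsupp.lapply i).comp (spechtSub n μ).toSubmodule.subtype

theorem ev_apply {n : ℕ} (μ : YoungDiagram) (i : Fin n → ℕ) (v : (spechtSub n μ).toSubmodule) :
    ev μ i v = v.1 i := rfl

theorem specht_finite (n : ℕ) (μ : YoungDiagram) :
    Module.Finite ℂ (spechtSub n μ).toSubmodule :=
  Module.Finite.span_of_finite ℂ (Set.finite_range _)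

theorem finrank_hom_pos {G U V W : Type*} [Monoid G] [AddCommGroup U] [AddCommGroup V]
    [AddCommGroup W] [Module ℂ U] [Module ℂ V] [Module ℂ W] [Module.Finite ℂ U]
    [Module.Finite ℂ V] [Module.Finite ℂ W] (ρ : Representation ℂ G U)
    (σ : Representation ℂ G V) (τ : Representation ℂ G W) (φ : U →ₗ[ℂ] TensorProduct ℂ V W)
    (h : ∀ g v, φ (ρ g v) = σ.tprod τ g (φ v)) (h0 : φ ≠ 0) :
    0 < Module.finrank ℂ (Representation.IntertwiningMap ρ (σ.tprod τ)) := by
  have : Nontrivial (Representation.IntertwiningMap ρ (σ.tprod τ)) :=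
    ⟨φ.intertwiningMap_of_isIntertwiningMap _ _ h, 0,
      fun h1 => h0 (congrArg Representation.IntertwiningMap.toLinearMap h1)⟩
  exact Module.finrank_pos

theorem kronecker_pos {N m : ℕ} (ν : YoungDiagram) (T : Fin N ≃ ν.cells)
    (h : Wk m (fun p => (T p).1.1) (fun p => (T p).1.2)) :
    0 < kronecker N (staircase m) (staircase m) ν := by
  obtain ⟨u, v, hu, hv, i, j, hij⟩ := h.fin
  choose U hU using fun h => exists_lift (hu h)
  choose V hV using fun h => exists_lift (hv h)
  have := specht_finite N ν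
  have := specht_finite N (staircase m)
  let ρ := (specht N (staircase m)).tprod (specht N (staircase m))
  let z : TensorProduct ℂ (spechtSub N (staircase m)).toSubmodule
      (spechtSub N (staircase m)).toSubmodule := ∑ h, TensorProduct.tmul ℂ (U h) (V h)
  let R : Fin N → ℕ := fun p => (T p).1.1
  let φ : (spechtSub N ν).toSubmodule →ₗ[ℂ] TensorProduct ℂ
      (spechtSub N (staircase m)).toSubmodule (spechtSub N (staircase m)).toSubmodule :=
    ∑ g : Perm (Fin N), (ev ν (R ∘ ⇑g⁻¹)).smulRight (ρ g z)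
  have hφ : ∀ w, φ w = ∑ g : Perm (Fin N), w.1 (R ∘ ⇑g⁻¹) • ρ g z := by
    intro w
    simp only [φ, LinearMap.sum_apply, LinearMap.smulRight_apply, ev_apply]
  have hint : ∀ (g : Perm (Fin N)) w, φ (specht N ν g w) = ρ g (φ w) := by
    intro g w
    rw [hφ, hφ, map_sum, ← Equiv.sum_comp (Equiv.mulLeft g)]
    refine Finset.sum_congr rfl fun k _ => ?_
    rw [specht_apply, map_smul, Equiv.coe_mulLeft, map_mul, Module.End.mul_apply]
    congr 2
    funext p
    simp
  let Λ : TensorProduct ℂ (spechtSub N (staircase m)).toSubmodule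
      (spechtSub N (staircase m)).toSubmodule →ₗ[ℂ] ℂ :=
    (LinearMap.mul' ℂ ℂ).comp (TensorProduct.map (ev _ i) (ev _ j))
  have hΛ : ∀ g : Perm (Fin N), Λ (ρ g z) = ((∑ h, u h (i ∘ g) * v h (j ∘ g) : ℝ) : ℂ) := by
    intro g
    simp only [Λ, ρ, z, map_sum, Representation.tprod_apply, TensorProduct.map_tmul,
      LinearMap.comp_apply, LinearMap.mul'_apply, ev_apply, specht_apply, hU, hV]
    push_cast
    rfl
  have hne : Λ (φ ⟨polytabloid T, Submodule.subset_span ⟨T, rfl⟩⟩) ≠ 0 := by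
    rw [hφ, map_sum]
    simp only [map_smul, hΛ, polytabloid_apply, smul_eq_mul, ← Complex.ofReal_mul,
      ← Complex.ofReal_sum, ne_eq, Complex.ofReal_eq_zero]
    intro h0
    apply hij
    rw [← h0]
    unfold YS
    simp only [D_eq_sum, Finset.sum_mul]
    refine Eq.trans ?_ Finset.sum_comm
    refine Finset.sum_congr rfl fun c _ => ?_
    refine Eq.trans ?_ (Equiv.sum_comp (Equiv.mulLeft c) _)
    refine Finset.sum_congr rfl fun r _ => ?_
    rw [ite_mul, zero_mul]
    refine @if_congr _ _ _ (_) (_) _ _ _ _ ?_ rfl rfl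
    simp only [Equiv.coe_mulLeft, mul_inv_rev, Perm.coe_mul, Function.comp_apply,
      Perm.coe_inv, Equiv.symm_apply_apply, Prod.ext_iff, R, forall_and]
    rw [and_comm]
    refine and_congr_left fun _ => ⟨fun h q => ?_, fun h q => ?_⟩
    · simpa using (h (r⁻¹ q)).symm
    · simpa using (h (r q)).symm
  refine finrank_hom_pos (G := Perm (Fin N)) (U := (spechtSub N ν).toSubmodule)
    (V := (spechtSub N (staircase m)).toSubmodule) (W := (spechtSub N (staircase m)).toSubmodule)
    (specht N ν) (specht N (staircase m)) (specht N (staircase m)) φ hint fun h1 => hne ?_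
  rw [h1]
  simp

theorem saxl (m : ℕ) (ν : YoungDiagram) (h : ν.card = m * (m + 1) / 2) :
    0 < kronecker (m * (m + 1) / 2) (staircase m) (staircase m) ν := by
  let T : Fin (m * (m + 1) / 2) ≃ ν.cells := (Finset.equivFinOfCardEq h).symm
  refine kronecker_pos ν T (Wk.transport T.symm ?_)
  have h2 : 2 * ν.card = m * (m + 1) := by
    rw [h]
    exact Nat.two_mul_div_two_of_even (Nat.even_mul_succ_self m)
  convert wk_all m ν h2 using 1 <;> funext p <;> simp

end Vale.Agent.P197
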