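import Vale.Agent.P197.Basic

/-! Matrix unit operators on functions of labelings. -/

namespace Vale.Agent.P197

open Finset

set_option linter.unusedSectionVars false

/-- the standard inner product -/
def ip {X : Type*} [Fintype X] (f g : X → ℝ) : ℝ := ∑ x, f x * g x

section ip

variable {X : Type*} [Fintype X]

theorem ip_comm (f g : X → ℝ) : ip f g = ip g f := by
  simp [ip, mul_comm]

theorem ip_self_nonneg (f : X → ℝ) : 0 ≤ ip f f :=
  Finset.sum_nonneg fun _ _ => mul_self_nonneg _

theorem ip_self_eq_zero {f : X → ℝ} (h : ip f f = 0) : f = 0 := by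
  funext x
  exact mul_self_eq_zero.1
    ((Finset.sum_eq_zero_iff_of_nonneg fun _ _ => mul_self_nonneg _).1 h x (mem_univ _))

theorem ip_add_right (f g h : X → ℝ) : ip f (g + h) = ip f g + ip f h := by
  simp [ip, mul_add, Finset.sum_add_distrib]

theorem ip_neg_right (f g : X → ℝ) : ip f (-g) = - ip f g := by
  simp [ip]

theorem ip_sub_right (f g h : X → ℝ) : ip f (g - h) = ip f g - ip f h := by
  simp [ip, mul_sub, Finset.sum_sub_distrib]

theorem ip_zero_right (f : X → ℝ) : ip f 0 = 0 := by
  simp [ip]

theorem ip_sum_right {ι : Type*} (s : Finset ι) (f : X → ℝ) (g : ι → X → ℝ) :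
    ip f (∑ k ∈ s, g k) = ∑ k ∈ s, ip f (g k) := by
  simp only [ip, Finset.sum_apply, Finset.mul_sum]
  exact Finset.sum_comm

/-- adjoint operators -/
def Adj (A B : Module.End ℝ (X → ℝ)) : Prop := ∀ f g, ip f (A g) = ip (B f) g

theorem Adj.symm {A B : Module.End ℝ (X → ℝ)} (h : Adj A B) : Adj B A := by
  intro f g
  rw [ip_comm, ← h, ip_comm]

theorem Adj.mul {A B A' B' : Module.End ℝ (X → ℝ)} (h : Adj A B) (h' : Adj A' B') :
    Adj (A * A') (B' * B) := by
  intro f g
  simp only [Module.End.mul_apply]
  rw [h, h']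

theorem Adj.sum {ι : Type*} (s : Finset ι) {A B : ι → Module.End ℝ (X → ℝ)}
    (h : ∀ k ∈ s, Adj (A k) (B k)) : Adj (∑ k ∈ s, A k) (∑ k ∈ s, B k) := by
  intro f g
  rw [LinearMap.sum_apply, LinearMap.sum_apply, ip_sum_right, ip_comm, ip_sum_right]
  refine Finset.sum_congr rfl fun k hk => ?_
  rw [h k hk, ip_comm]

theorem Adj.norm {A B : Module.End ℝ (X → ℝ)} (h : Adj A B) (f : X → ℝ) :
    ip f ((A * B) f) = ip (B f) (B f) := h _ _

end ip

variable {P L S : Type*} [Fintype P] [DecidableEq P] [Fintype L] [DecidableEq L] [Fintype S]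

/-- the matrix unit acting at position `p` -/
def eo (p : P) (a b : L) : Module.End ℝ ((P → L) × S → ℝ) where
  toFun f x := if x.1 p = a then f (Function.update x.1 p b, x.2) else 0
  map_add' f g := by
    funext x
    simp only [Pi.add_apply]
    split_ifs <;> simp
  map_smul' c f := by
    funext x
    simp only [Pi.smul_apply, RingHom.id_apply]
    split_ifs <;> simp

theorem eo_apply (p : P) (a b : L) (f : (P → L) × S → ℝ) (x : (P → L) × S) :
    eo p a b f x = if x.1 p = a then f (Function.update x.1 p b, x.2) else 0 := rfl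

theorem eo_mul_same (p : P) (a b c d : L) :
    (eo p a b * eo p c d : Module.End ℝ ((P → L) × S → ℝ)) = if b = c then eo p a d else 0 := by
  refine LinearMap.ext fun f => funext fun x => ?_
  by_cases h : b = c <;> simp [eo_apply, h]

theorem eo_comm {p q : P} (h : p ≠ q) (a b c d : L) :
    (eo p a b * eo q c d : Module.End ℝ ((P → L) × S → ℝ)) = eo q c d * eo p a b := by
  refine LinearMap.ext fun f => funext fun x => ?_
  simp only [Module.End.mul_apply, eo_apply, Function.update_of_ne h,
    Function.update_of_ne h.symm, Function.update_comm h]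
  split_ifs <;> rfl

theorem eo_adj (p : P) (a b : L) :
    Adj (eo p a b : Module.End ℝ ((P → L) × S → ℝ)) (eo p b a) := by
  intro f g
  simp only [ip, eo_apply, mul_ite, ite_mul, mul_zero, zero_mul]
  rw [← Finset.sum_filter, ← Finset.sum_filter]
  refine Finset.sum_nbij' (fun x => (Function.update x.1 p b, x.2))
    (fun x => (Function.update x.1 p a, x.2)) (by simp) (by simp) ?_ ?_ ?_
  · intro x hx
    simp only [mem_filter, mem_univ, true_and] at hx
    simp [← hx]
  · intro x hx
    simp only [mem_filter, mem_univ, true_and] at hx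
    simp [← hx]
  · intro x hx
    simp only [mem_filter, mem_univ, true_and] at hx
    simp [← hx]

/-- the matrix unit acting on the positions in `Q` -/
def E (Q : Finset P) (a b : L) : Module.End ℝ ((P → L) × S → ℝ) := ∑ p ∈ Q, eo p a b

theorem E_apply (Q : Finset P) (a b : L) (f : (P → L) × S → ℝ) (x : (P → L) × S) :
    E Q a b f x = ∑ p ∈ Q, if x.1 p = a then f (Function.update x.1 p b, x.2) else 0 := by
  simp [E, LinearMap.sum_apply, eo_apply]

theorem E_adj (Q : Finset P) (a b : L) :
    Adj (E Q a b : Module.End ℝ ((P → L) × S → ℝ)) (E Q b a) :=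
  Adj.sum _ fun p _ => eo_adj p a b

theorem E_comm (Q : Finset P) (a b c d : L) :
    (E Q a b * E Q c d : Module.End ℝ ((P → L) × S → ℝ)) = E Q c d * E Q a b +
      ((if b = c then E Q a d else 0) - (if d = a then E Q c b else 0)) := by
  rw [← sub_eq_iff_eq_add']
  unfold E
  rw [Finset.sum_mul_sum, Finset.sum_mul_sum, Finset.sum_comm (s := Q) (t := Q)
    (f := fun i j => eo i c d * eo j a b), ← Finset.sum_sub_distrib]
  have : ∀ p ∈ Q, (∑ q ∈ Q, eo p a b * eo q c d - ∑ q ∈ Q, eo q c d * eo p a b :
      Module.End ℝ ((P → L) × S → ℝ)) =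
      (if b = c then eo p a d else 0) - (if d = a then eo p c b else 0) := by
    intro p hp
    rw [← Finset.sum_sub_distrib, Finset.sum_eq_single p]
    · rw [eo_mul_same, eo_mul_same]
    · intro q _ hq
      rw [eo_comm hq.symm, sub_self]
    · intro h
      exact absurd hp h
  rw [Finset.sum_congr rfl this, Finset.sum_sub_distrib]
  congr 1 <;> split_ifs <;> simp

theorem E_diag (Q : Finset P) (a : L) (f : (P → L) × S → ℝ) (x : (P → L) × S) :
    E Q a a f x = ((Q.filter (fun p => x.1 p = a)).card : ℝ) * f x := by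
  rw [E_apply, ← Finset.sum_filter, Finset.sum_congr rfl (g := fun _ => f x)]
  · simp
  · intro p hp
    rw [← (mem_filter.1 hp).2]
    simp

theorem sl2 (Q : Finset P) (a b : L) (f : (P → L) × S → ℝ) (h : E Q b a f = 0)
    (hc : ∀ x, f x ≠ 0 →
      (Q.filter (fun p => x.1 p = b)).card < (Q.filter (fun p => x.1 p = a)).card) : f = 0 := by
  have h1 := (E_adj (S := S) Q a b).norm f
  have h2 := (E_adj (S := S) Q b a).norm f
  rw [E_comm, h] at h1
  simp only [if_true, LinearMap.add_apply, LinearMap.sub_apply, ip_add_right, h2,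
    ip_zero_right] at h1
  have h3 := ip_self_nonneg (E Q a b f)
  have h4 : ip f f ≤ ip f (E Q a a f - E Q b b f) := by
    refine Finset.sum_le_sum fun x _ => ?_
    simp only [Pi.sub_apply, E_diag]
    by_cases hx : f x = 0
    · simp [hx]
    · have : ((Q.filter (fun p => x.1 p = b)).card : ℝ) + 1 ≤
        (Q.filter (fun p => x.1 p = a)).card := by exact_mod_cast hc x hx
      nlinarith [mul_self_nonneg (f x)]
  exact ip_self_eq_zero (le_antisymm (by linarith) (ip_self_nonneg f))

theorem E_univ_eq (T : Finset P) (z a b : L) (hb : b ≠ z) (f : (P → L) × S → ℝ)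
    (hf : ∀ x, f x ≠ 0 → ∀ p ∈ T, x.1 p = z) : E univ a b f = E Tᶜ a b f := by
  funext x
  rw [E_apply, E_apply]
  symm
  refine Finset.sum_subset (subset_univ _) fun p _ hp => ?_
  split_ifs
  · by_contra h0
    have := hf _ h0 p (by simpa using hp)
    simp only [Function.update_self] at this
    exact hb this
  · rfl

theorem cnt_update (j : P → L) (p : P) (b c : L) :
    cnt (Function.update j p b) c + (if j p = c then 1 else 0) =
      cnt j c + (if b = c then 1 else 0) := by
  unfold cnt
  simp only [Finset.card_filter]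
  rw [← Finset.add_sum_erase _ _ (mem_univ p), ← Finset.add_sum_erase _ _ (mem_univ p)]
  have : ∑ x ∈ univ.erase p, (if Function.update j p b x = c then 1 else 0) =
      ∑ x ∈ univ.erase p, (if j x = c then 1 else 0) :=
    Finset.sum_congr rfl fun x hx => by rw [Function.update_of_ne (mem_erase.1 hx).1]
  rw [this, Function.update_self]
  omega

end Vale.Agent.P197
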