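import Vale.Agent.P197.Zig2

/-! The strong class and its inductive step. -/

namespace Vale.Agent.P197

open Equiv Finset

set_option linter.unusedSectionVars false

variable {P : Type*} [Fintype P] [DecidableEq P]

theorem sum_eq_of_cnt {i j : P → ℕ} (h : ∀ a, cnt i a = cnt j a) : ∑ p, i p = ∑ p, j p := by
  have key : ∀ (i : P → ℕ) (s : Finset ℕ), (∀ p, i p ∈ s) → ∑ p, i p = ∑ a ∈ s, cnt i a * a := by
    intro i s hs
    rw [← Finset.sum_fiberwise_of_maps_to (s := univ) (t := s) (g := i) (fun p _ => hs p)]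
    refine Finset.sum_congr rfl fun a _ => ?_
    rw [Finset.sum_congr rfl (g := fun _ => a) (fun p hp => (mem_filter.1 hp).2)]
    simp [cnt]
  rw [key i (univ.image i ∪ univ.image j) (by simp), key j (univ.image i ∪ univ.image j) (by simp)]
  simp only [h]

/-- the strong class -/
def Str (m : ℕ) (R C : P → ℕ) : Prop :=
  ∃ F : (P → ℕ) → (P → ℕ) → ℝ, (∀ j, IsHW (fun a => m - a) (fun i => F i j)) ∧
    (∀ i, IsHW (fun a => m - a) (F i)) ∧
    ∃ i j : P → ℕ, (∀ p, i p + j p < m) ∧ YS R C (fun g => F (i ∘ g) (j ∘ g)) ≠ 0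

theorem Str.transport {Q : Type*} [Fintype Q] [DecidableEq Q] (e : Q ≃ P) {m : ℕ} {R C : P → ℕ}
    (h : Str m (R ∘ e) (C ∘ e)) : Str m R C := by
  obtain ⟨F, h1, h2, i, j, h3, h4⟩ := h
  refine ⟨fun i j => F (i ∘ e) (j ∘ e), fun j => (h1 _).comp_equiv e,
    fun i => (h2 _).comp_equiv e, i ∘ e.symm, j ∘ e.symm, fun p => h3 _, ?_⟩
  rw [← YS_transport e]
  convert h4 using 4 with g g <;> funext q <;> simp

theorem Str.base [IsEmpty P] (R C : P → ℕ) : Str 0 R C := by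
  have h : IsHW (fun a => 0 - a) (fun _ : P → ℕ => (1 : ℝ)) :=
    ⟨fun i _ a => by simp [cnt], fun a b _ i => by simp [raise]⟩
  refine ⟨fun _ _ => 1, fun _ => h, fun _ => h, fun _ => 0, fun _ => 0,
    fun p => isEmptyElim p, ?_⟩
  refine YS_ne_of_const one_ne_zero fun c r _ _ => ?_
  rw [Subsingleton.elim c 1]
  simp

theorem Str.step {A : Type*} [Fintype A] [DecidableEq A] (n : ℕ)
    (R C : A ⊕ Fin (2 * n + 1) → ℕ) (h : ℕ → ℕ)
    (h1 : ∀ a, C (Sum.inl a) < h (R (Sum.inl a)))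
    (h2 : ∀ b, h (R (Sum.inr b)) ≤ C (Sum.inr b)) (hC : Monotone (C ∘ Sum.inr))
    (hR : ∀ p q, C (Sum.inr p) = C (Sum.inr q) → R (Sum.inr p) % 4 = R (Sum.inr q) % 4 → p = q)
    (ih : Str (n - 1) (R ∘ Sum.inl) (C ∘ Sum.inl)) : Str (n + 1) R C := by
  obtain ⟨F, f1, f2, i, j, f3, f4⟩ := ih
  obtain ⟨W, w1, w2, w3⟩ := zig n (R ∘ Sum.inr) (C ∘ Sum.inr) hC hR
  have hw : (fun a => n + 1 - a) = fun a => (n - 1 - a) + theta n a := by
    funext a
    unfold theta
    omega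
  refine ⟨fun i j => F (i ∘ Sum.inl) (j ∘ Sum.inl) * W (i ∘ Sum.inr) (j ∘ Sum.inr),
    fun j => hw ▸ (f1 _).prod (w1 _), fun i => hw ▸ (f2 _).prod (w2 _),
    Sum.elim i (iZ n), Sum.elim j (jZ n), ?_, ?_⟩
  · rintro (a | b)
    · have := f3 a
      simp only [Sum.elim_inl]
      omega
    · have := b.2
      simp only [Sum.elim_inr, iZ, jZ]
      omega
  · rw [YS_fact R C h h1 h2 _ (fun g => F (i ∘ g) (j ∘ g)) (fun g => W (iZ n ∘ g) (jZ n ∘ g))]
    · exact mul_ne_zero f4 w3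
    · intro g hg
      have hg' := right_ne_zero_of_mul hg
      have s1 := sum_eq_of_cnt (fun a => ((w1 _).1 _ hg' a).trans (congrFun (cnt_iZ n) a).symm)
      have s2 := sum_eq_of_cnt (fun a => ((w2 _).1 _ hg' a).trans (congrFun (cnt_jZ n) a).symm)
      refine pres (fun p => ((Sum.elim i (iZ n) p : ℕ) : ℤ) + ((Sum.elim j (jZ n) p : ℕ) : ℤ) -
        (n - 1 : ℕ))
        (fun a => ?_) (fun b => ?_) g (le_of_eq ?_)
      · have := f3 a
        simp only [Sum.elim_inl]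
        omega
      · have := b.2
        simp only [Sum.elim_inr, iZ, jZ]
        omega
      · simp only [Finset.sum_sub_distrib, Finset.sum_add_distrib, Sum.elim_inr]
        simp only [Function.comp_apply] at s1 s2
        simp only [← Nat.cast_sum, s1, s2]
    · intro g1 g2
      rfl

end Vale.Agent.P197
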