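import Vale.Agent.P197.Strong
import Vale.Agent.P197.Ext2

/-! The weak class and its inductive step. -/

namespace Vale.Agent.P197

open Equiv Finset

set_option linter.unusedSectionVars false

variable {P : Type*} [Fintype P] [DecidableEq P]

/-- labelings with labels below `m` -/
def Y (P : Type*) [Fintype P] [DecidableEq P] (m : ℕ) : Finset (P → ℕ) :=
  Fintype.piFinset (fun _ => range m)

theorem mem_Y {m : ℕ} {j : P → ℕ} : j ∈ Y P m ↔ ∀ p, j p < m := by
  simp [Y]

theorem sum_Y_comp {Q : Type*} [Fintype Q] [DecidableEq Q] (e : Q ≃ P) (m : ℕ)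
    (H : (Q → ℕ) → ℝ) : ∑ j ∈ Y P m, H (j ∘ e) = ∑ j ∈ Y Q m, H j := by
  refine Finset.sum_nbij' (fun j => j ∘ e) (fun j => j ∘ e.symm) ?_ ?_ ?_ ?_ ?_
  · intro j hj
    exact mem_Y.2 fun p => mem_Y.1 hj _
  · intro j hj
    exact mem_Y.2 fun p => mem_Y.1 hj _
  · intro j _
    funext p
    simp
  · intro j _
    funext p
    simp
  · intro j _
    rfl

/-- the weak class -/
def Wk (m : ℕ) (R C : P → ℕ) : Prop :=
  ∃ F : (P → ℕ) → (P → ℕ) → ℝ, (∀ j, IsHW (fun a => m - a) (fun i => F i j)) ∧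
    ∃ (i : P → ℕ) (b : (P → ℕ) → ℝ), (∀ p, i p < m) ∧ IsHW (fun a => m - a) b ∧
      YS R C (fun g => ∑ j ∈ Y P m, F (i ∘ g) (j ∘ g) * b j) ≠ 0

theorem Wk.transport {Q : Type*} [Fintype Q] [DecidableEq Q] (e : Q ≃ P) {m : ℕ} {R C : P → ℕ}
    (h : Wk m (R ∘ e) (C ∘ e)) : Wk m R C := by
  obtain ⟨F, h1, i, b, h2, h3, h4⟩ := h
  refine ⟨fun i j => F (i ∘ e) (j ∘ e), fun j => (h1 _).comp_equiv e,
    i ∘ e.symm, fun j => b (j ∘ e), fun p => h2 _, h3.comp_equiv e, ?_⟩
  rw [← YS_transport e]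
  convert h4 using 3 with g
  rw [← sum_Y_comp e]
  refine Finset.sum_congr rfl fun j _ => ?_
  simp only
  congr 2 <;> funext q <;> simp

theorem IsHW.YS {Q : Type*} [Fintype Q] [DecidableEq Q] {la : ℕ → ℕ} (R C : P → ℕ)
    {H : Perm P → (Q → ℕ) → ℝ} (h : ∀ g, IsHW la (H g)) :
    IsHW la (fun j => YS R C (fun g => H g j)) := by
  unfold Vale.Agent.P197.YS
  refine IsHW.sum _ fun c _ => IsHW.sum _ fun r _ => ?_
  split_ifs
  · exact (h _).const_mul _
  · exact IsHW.zero _

theorem Str.wk {m : ℕ} {R C : P → ℕ} (h : Str m R C) : Wk m R C := by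
  obtain ⟨F, h1, h2, i, j, h3, h4⟩ := h
  refine ⟨F, h1, i, fun j => YS R C (fun g => F (i ∘ g) (j ∘ g)),
    fun p => by have := h3 p; omega, IsHW.YS R C fun g => (h2 _).comp_equiv g, ?_⟩
  rw [YS_sum_mul (G := fun j g => F (i ∘ g) (j ∘ g))]
  refine ne_of_gt (Finset.sum_pos' (fun _ _ => mul_self_nonneg _) ⟨j, ?_, mul_self_pos.2 h4⟩)
  exact mem_Y.2 fun p => by have := h3 p; omega

/-- indicator that the zero set is exactly the second block -/
noncomputable def Zi {A B : Type*} [Fintype A] [Fintype B] (j : A ⊕ B → ℕ) : ℝ :=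
  if (∀ a, j (Sum.inl a) ≠ 0) ∧ ∀ b, j (Sum.inr b) = 0 then 1 else 0

theorem Zi_ne {A B : Type*} [Fintype A] [Fintype B] {j : A ⊕ B → ℕ} (h : Zi j ≠ 0) :
    (∀ a, j (Sum.inl a) ≠ 0) ∧ ∀ b, j (Sum.inr b) = 0 := by
  by_contra h'
  exact h (if_neg h')

theorem Zi_congr {A B : Type*} [Fintype A] [Fintype B] {j j' : A ⊕ B → ℕ}
    (h : ∀ p, j p = 0 ↔ j' p = 0) : Zi j = Zi j' := by
  unfold Zi
  simp only [ne_eq, h]

theorem Wk.step {A : Type*} [Fintype A] [DecidableEq A] (n : ℕ)
    (R C : A ⊕ Fin (n + 1) → ℕ) (h : ℕ → ℕ)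
    (h1 : ∀ a, C (Sum.inl a) < h (R (Sum.inl a)))
    (h2 : ∀ b, h (R (Sum.inr b)) ≤ C (Sum.inr b))
    (hR : ∀ p q, R (Sum.inr p) = R (Sum.inr q) → p = q)
    (ih : Wk n (R ∘ Sum.inl) (C ∘ Sum.inl)) : Wk (n + 1) R C := by
  obtain ⟨F, f1, i, b, f2, f3, f4⟩ := ih
  let τ : Fin (n + 1) → ℕ × Unit := fun q => (q.val, ())
  have hτ : Function.Injective τ := fun p q hpq => Fin.ext (congrArg Prod.fst hpq)
  have hD := D_hw hτ (fun q a ha => ⟨⟨a, lt_trans ha q.2⟩, rfl⟩) (fun _ => ())
  have hw : (fun a => n + 1 - a) = fun a => (n - a) + cnt (fun q => (τ q).1) a := by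
    funext a
    by_cases ha : a < n + 1
    · have := cnt_fin (N := n + 1) id a {a} (fun x => by simp only [mem_singleton, id]; omega)
      rw [show cnt (fun q => (τ q).1) a = 1 from this]
      omega
    · have := cnt_fin (N := n + 1) id a ∅ (fun x => by
        simp only [Finset.notMem_empty, id, false_iff]; omega)
      rw [show cnt (fun q => (τ q).1) a = 0 from this]
      omega
  let sh : (A ⊕ Fin (n + 1) → ℕ) → A → ℕ := fun j a => j (Sum.inl a) - 1
  let ω : (A ⊕ Fin (n + 1) → ℕ) → ℝ := fun j => b (sh j) * Zi j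
  obtain ⟨b', b1, b2⟩ := extension n (Sum.elim i Fin.val) (by
      rintro (a | q)
      · have := f2 a
        simp only [Sum.elim_inl]
        omega
      · exact q.2) ω (by
      intro j hj a
      obtain ⟨z1, z2⟩ := Zi_ne (right_ne_zero_of_mul hj)
      have z3 := f3.1 _ (left_ne_zero_of_mul hj)
      rw [cnt_sum]
      rcases a with _ | a
      · simp [cnt, z1, z2]
      · have e1 : cnt (j ∘ Sum.inr) (a + 1) = 0 := by simp [cnt, z2]
        have e2 : cnt (j ∘ Sum.inl) (a + 1) = cnt (sh j) a := by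
          unfold cnt
          congr 1
          refine Finset.filter_congr fun x _ => ?_
          have := z1 x
          simp only [Function.comp_apply, sh]
          omega
        rw [e1, e2, z3]
        simp) (by
      intro a c ha hac j
      unfold raise
      rw [Fintype.sum_sum_type, Finset.sum_eq_zero (s := (univ : Finset (Fin (n + 1)))), add_zero]
      · have e1 : ∀ x, j (Sum.inl x) = a → Zi (Function.update j (Sum.inl x) c) = Zi j := by
          intro x hx
          refine Zi_congr fun y => ?_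
          by_cases hy : y = Sum.inl x
          · subst hy
            simp only [Function.update_self]
            omega
          · rw [Function.update_of_ne hy]
        by_cases hz : Zi j = 0
        · refine Finset.sum_eq_zero fun x _ => ?_
          split_ifs with hx
          · simp only [ω]
            rw [e1 x hx, hz, mul_zero]
          · rfl
        · have e2 := f3.2 (a - 1) (c - 1) (by omega) (sh j)
          refine Eq.trans ?_ ((congrArg (· * Zi j) e2).trans (zero_mul _))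
          unfold raise
          rw [Finset.sum_mul]
          refine Finset.sum_congr rfl fun x _ => ?_
          have := (Zi_ne hz).1 x
          by_cases hx : j (Sum.inl x) = a
          · rw [if_pos hx, if_pos (by simp only [sh]; omega)]
            simp only [ω]
            rw [e1 x hx]
            congr 2
            funext y
            by_cases hy : y = x
            · subst hy
              simp [sh]
            · simp [sh, hy]
          · rw [if_neg hx, if_neg (by simp only [sh]; omega), zero_mul]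
      · intro y _
        split_ifs
        · by_contra h0
          have := (Zi_ne (right_ne_zero_of_mul h0)).2 y
          simp only [Function.update_self] at this
          omega
        · rfl)
  refine ⟨fun i j => F (i ∘ Sum.inl) (sh j) * D τ (i ∘ Sum.inr) (fun _ => ()) * Zi j,
    fun j => hw ▸ ((f1 _).prod hD).mul_const _, Sum.elim i Fin.val, b', ?_, b1, ?_⟩
  · rintro (a | q)
    · have := f2 a
      simp only [Sum.elim_inl]
      omega
    · exact q.2
  have hG : ∀ (g : Perm (A ⊕ Fin (n + 1))) (j : A ⊕ Fin (n + 1) → ℕ),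
      F ((Sum.elim i Fin.val ∘ g) ∘ Sum.inl) (sh (j ∘ g)) *
        D τ ((Sum.elim i Fin.val ∘ g) ∘ Sum.inr) (fun _ => ()) * Zi (j ∘ g) * b' j =
      F ((Sum.elim i Fin.val ∘ g) ∘ Sum.inl) (sh (j ∘ g)) *
        D τ ((Sum.elim i Fin.val ∘ g) ∘ Sum.inr) (fun _ => ()) * Zi (j ∘ g) * ω j := by
    intro g j
    by_cases h0 : F ((Sum.elim i Fin.val ∘ g) ∘ Sum.inl) (sh (j ∘ g)) *
        D τ ((Sum.elim i Fin.val ∘ g) ∘ Sum.inr) (fun _ => ()) * Zi (j ∘ g) = 0
    · rw [h0, zero_mul, zero_mul]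
    · rw [b2]
      obtain ⟨z1, -⟩ := Zi_ne (right_ne_zero_of_mul h0)
      have z2 := right_ne_zero_of_mul (left_ne_zero_of_mul h0)
      have z3 : ∀ p, j p = 0 → ∃ y, p = g (Sum.inr y) := by
        intro p hp
        obtain ⟨x | y, rfl⟩ := g.surjective p
        · exact absurd hp (z1 x)
        · exact ⟨y, rfl⟩
      intro p q hp hq hpq
      obtain ⟨y, rfl⟩ := z3 p hp
      obtain ⟨y', rfl⟩ := z3 q hq
      rw [inj_of_D_ne hτ z2 (p := y) (p' := y') hpq rfl]
  simp only [hG]
  rw [YS_fact R C h h1 h2 _ (fun g => ∑ j ∈ Y A n, F (i ∘ g) (j ∘ g) * b j)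
    (fun g => D τ (Fin.val ∘ g) (fun _ => ()))]
  · refine mul_ne_zero f4 (YS_ne_of_const one_ne_zero fun c r _ hr => ?_)
    have hr1 : r = 1 := Equiv.ext fun p => hR _ _ (hr p)
    have e1 := D_comp τ Fin.val (fun _ => ()) c
    have e2 : D τ Fin.val (fun _ => ()) = 1 := D_self hτ
    rw [hr1, mul_one]
    change _ * D τ (Fin.val ∘ c) ((fun _ => ()) ∘ c) = 1
    rw [e1, e2, mul_one, sign_sq]
  · intro g hg
    obtain ⟨j, -, hj⟩ := Finset.exists_ne_zero_of_sum_ne_zero hg
    have z1 := (Zi_ne (right_ne_zero_of_mul (left_ne_zero_of_mul hj))).2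
    have z2 := (Zi_ne (right_ne_zero_of_mul (right_ne_zero_of_mul hj))).1
    refine exists_sumCongr_of_inr fun y => ?_
    rcases hy : g (Sum.inr y) with x | y'
    · exact absurd (hy ▸ z1 y : j (Sum.inl x) = 0) (z2 x)
    · exact ⟨y', rfl⟩
  · intro g1 g2
    rw [Finset.sum_mul]
    symm
    refine Finset.sum_of_injOn (fun j : A → ℕ => Sum.elim (fun a => j a + 1) (fun _ => 0))
      ?_ ?_ ?_ ?_
    · intro j _ j' _ hj
      funext a
      simpa using congrFun hj (Sum.inl a)
    · intro j hj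
      refine mem_Y.2 ?_
      rintro (a | y)
      · simpa using mem_Y.1 hj a
      · simp
    · intro j hj hj'
      by_contra h0
      obtain ⟨z1, z2⟩ := Zi_ne (right_ne_zero_of_mul (right_ne_zero_of_mul h0))
      refine hj' ⟨sh j, mem_coe.2 (mem_Y.2 fun a => ?_), ?_⟩
      · have := mem_Y.1 hj (Sum.inl a)
        have := z1 a
        simp only [sh]
        omega
      · funext p
        rcases p with a | y
        · have := z1 a
          simp only [sh, Sum.elim_inl]
          omega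
        · simp [z2]
    · intro j _
      have e1 : Zi (Sum.elim (fun a => j a + 1) (fun _ : Fin (n + 1) => 0)) = 1 :=
        if_pos (by simp)
      have e2 : Zi (Sum.elim (fun a => j a + 1) (fun _ : Fin (n + 1) => 0) ∘
          ⇑(Perm.sumCongr g1 g2)) = 1 := if_pos (by simp)
      simp only [ω]
      rw [e1, e2, mul_one, mul_one, mul_right_comm]
      rfl

theorem Wk.fin {m : ℕ} {R C : P → ℕ} (h : Wk m R C) :
    ∃ u v : Perm P → (P → ℕ) → ℝ, (∀ h, IsHW (fun a => m - a) (u h)) ∧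
      (∀ h, IsHW (fun a => m - a) (v h)) ∧
      ∃ i j : P → ℕ, YS R C (fun g => ∑ h, u h (i ∘ g) * v h (j ∘ g)) ≠ 0 := by
  obtain ⟨F, h1, i, b, -, h3, h4⟩ := h
  refine ⟨fun h i => ∑ j ∈ Y P m, F i j * b (j ∘ h), fun h j => b (j ∘ h),
    fun h => IsHW.sum _ fun j _ => (h1 j).mul_const _, fun h => h3.comp_equiv h, i, ?_⟩
  let x : (P → ℕ) → ℝ := fun j => YS R C (fun g => F (i ∘ g) (j ∘ g))
  let y : Perm P → ℝ := fun h => ∑ j ∈ Y P m, x j * b (j ∘ h)
  have hy : y 1 ≠ 0 := by
    rw [YS_sum_mul (G := fun j g => F (i ∘ g) (j ∘ g))] at h4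
    exact h4
  have key : ∀ j : P → ℕ, YS R C (fun g => ∑ h : Perm P,
      (∑ j' ∈ Y P m, F (i ∘ g) j' * b (j' ∘ h)) * b ((j ∘ g) ∘ h)) = ∑ h, y h * b (j ∘ h) := by
    intro j
    have e1 : ∀ g : Perm P, ∑ h : Perm P,
        (∑ j' ∈ Y P m, F (i ∘ g) j' * b (j' ∘ h)) * b ((j ∘ g) ∘ h) =
        ∑ h : Perm P, (∑ j' ∈ Y P m, F (i ∘ g) (j' ∘ g) * b (j' ∘ h)) * b (j ∘ h) := by
      intro g
      rw [← Equiv.sum_comp (Equiv.mulLeft g)
        (fun h : Perm P => (∑ j' ∈ Y P m, F (i ∘ g) (j' ∘ g) * b (j' ∘ h)) * b (j ∘ h))]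
      refine Finset.sum_congr rfl fun h _ => ?_
      rw [← sum_Y_comp g]
      rfl
    simp only [e1]
    rw [YS_sum_mul (G := fun (h g : Perm P) => ∑ j' ∈ Y P m, F (i ∘ g) (j' ∘ g) * b (j' ∘ h))]
    refine Finset.sum_congr rfl fun h _ => ?_
    rw [YS_sum_mul (G := fun j g => F (i ∘ g) (j ∘ g))]
  by_contra hc
  push Not at hc
  have e2 : ∑ j ∈ Y P m, x j * ∑ h, y h * b (j ∘ h) = ∑ h, y h * y h := by
    simp only [Finset.mul_sum]
    rw [Finset.sum_comm]
    refine Finset.sum_congr rfl fun h _ => ?_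
    change _ = y h * ∑ j ∈ Y P m, x j * b (j ∘ h)
    rw [Finset.mul_sum]
    refine Finset.sum_congr rfl fun j _ => ?_
    ring
  have e3 : 0 < ∑ h, y h * y h :=
    Finset.sum_pos' (fun _ _ => mul_self_nonneg _) ⟨1, mem_univ _, mul_self_pos.2 hy⟩
  rw [← e2, Finset.sum_eq_zero] at e3
  · exact lt_irrefl _ e3
  · intro j _
    rw [← key j, hc j, mul_zero]

end Vale.Agent.P197
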