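import Vale.Agent.P197.Fact

/-! The zigzag block. -/

namespace Vale.Agent.P197

open Equiv Finset

set_option linter.unusedSectionVars false

variable {P : Type*} [Fintype P] [DecidableEq P]

theorem YS_ne_of_const {R C : P → ℕ} {G : Perm P → ℝ} {x : ℝ} (hx : x ≠ 0)
    (h : ∀ c r : Perm P, (∀ p, C (c p) = C p) → (∀ p, R (r p) = R p) →
      ((Perm.sign c : ℤ) : ℝ) * G (c * r) = x) : YS R C G ≠ 0 := by
  have h1 : YS R C G = (∑ c : Perm P, ∑ r : Perm P,
      if (∀ p, C (c p) = C p) ∧ (∀ p, R (r p) = R p) then (1 : ℝ) else 0) * x := by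
    unfold YS
    simp only [Finset.sum_mul]
    refine Finset.sum_congr rfl fun c _ => Finset.sum_congr rfl fun r _ => ?_
    split_ifs with hh
    · rw [h c r hh.1 hh.2, one_mul]
    · simp
  rw [h1]
  refine mul_ne_zero (ne_of_gt ?_) hx
  refine Finset.sum_pos' (fun c _ => Finset.sum_nonneg fun r _ => by positivity) ⟨1, mem_univ _, ?_⟩
  refine Finset.sum_pos' (fun r _ => by positivity) ⟨1, mem_univ _, ?_⟩
  simp

theorem D_ne_of_surj {A : Type*} [DecidableEq A] {τ : P → ℕ × A} (hτ : Function.Injective τ)
    {i : P → ℕ} {α : P → A} (h : ∀ q, ∃ p, (i p, α p) = τ q) : D τ i α ≠ 0 := by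
  choose σ hσ using h
  have hinj : Function.Injective σ := by
    intro q q' hq
    apply hτ
    rw [← hσ q, ← hσ q', hq]
  exact D_ne_of_exists hτ (Equiv.ofBijective σ (Finite.injective_iff_bijective.1 hinj)) hσ

theorem inj_of_D_ne {A : Type*} [DecidableEq A] {τ : P → ℕ × A} (hτ : Function.Injective τ)
    {i : P → ℕ} {α : P → A} (h : D τ i α ≠ 0) {p p' : P} (h1 : i p = i p') (h2 : α p = α p') :
    p = p' := by
  obtain ⟨σ, hσ⟩ := exists_of_D_ne h
  have a1 := hσ (σ.symm p)
  have a2 := hσ (σ.symm p')
  simp only [Equiv.apply_symm_apply] at a1 a2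
  rw [h1, h2, a2] at a1
  exact (σ.symm.injective (hτ a1)).symm

/-- the sign character of `ZMod 2` -/
noncomputable def chi (x : ZMod 2) : ℝ := if x = 0 then 1 else -1

theorem zmod2_cases (x : ZMod 2) : x = 0 ∨ x = 1 := by revert x; decide

theorem chi_add (x y : ZMod 2) : chi (x + y) = chi x * chi y := by
  have h11 : (1 + 1 : ZMod 2) = 0 := by decide
  rcases zmod2_cases x with rfl | rfl <;> rcases zmod2_cases y with rfl | rfl <;> simp [chi, h11]

theorem chi_ne (x : ZMod 2) : chi x ≠ 0 := by
  unfold chi
  split_ifs <;> simp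

theorem chi_one : chi 1 = -1 := by simp [chi]

/-- the Clifford weighted pairing -/
noncomputable def Phi (A B : (P → ZMod 2) → ℝ) (e f : P → ZMod 2) : ℝ :=
  ∑ α : P → ZMod 2, chi (∑ p, f p * α p) * (A α * B (α + e))

theorem Phi_symm (A B : (P → ZMod 2) → ℝ) (e f : P → ZMod 2) :
    Phi A B e f = chi (∑ p, f p * e p) * Phi B A e f := by
  unfold Phi
  rw [← Equiv.sum_comp (Equiv.addRight e), Finset.mul_sum]
  refine Finset.sum_congr rfl fun γ _ => ?_
  have h1 : γ + e + e = γ := by
    funext p
    simp only [Pi.add_apply]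
    generalize γ p = x
    generalize e p = y
    revert x y
    decide
  simp only [Equiv.coe_addRight, h1, Pi.add_apply, mul_add, Finset.sum_add_distrib, chi_add]
  ring

theorem sum_swap_mul {t u : P} (htu : t ≠ u) (f α : P → ZMod 2) :
    ∑ p, f (swap t u p) * α p = ∑ p, f p * α p + (f t + f u) * (α t + α u) := by
  have h := Fintype.sum_eq_add (f := fun p => f (swap t u p) * α p - f p * α p) t u htu
    (fun x hx => by rw [swap_apply_of_ne_of_ne hx.1 hx.2]; simp)
  rw [Finset.sum_sub_distrib, sub_eq_iff_eq_add] at h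
  rw [h, add_comm]
  congr 1
  simp only [swap_apply_left, swap_apply_right]
  generalize f t = a
  generalize f u = b
  generalize α t = c
  generalize α u = d
  revert a b c d
  decide

theorem comp_swap_eq {X : Type*} {t u : P} {γ : P → X} (h : γ t = γ u) : γ ∘ swap t u = γ := by
  funext p
  simp only [Function.comp_apply]
  rw [swap_apply_def]
  split_ifs with h1 h2
  · rw [h1, h]
  · rw [h2, h]
  · rfl

theorem Phi_swap {t u : P} (htu : t ≠ u) (A B : (P → ZMod 2) → ℝ)
    (hB : ∀ γ, B (γ ∘ swap t u) = - B γ) (e f : P → ZMod 2) (hne : (e t, f t) ≠ (e u, f u)) :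
    Phi A B (e ∘ swap t u) (f ∘ swap t u) = - Phi A B e f := by
  have hB0 : ∀ γ : P → ZMod 2, γ t = γ u → B γ = 0 := by
    intro γ h
    have := hB γ
    rw [comp_swap_eq h] at this
    linarith
  unfold Phi
  rw [← Finset.sum_neg_distrib]
  refine Finset.sum_congr rfl fun α _ => ?_
  simp only [Function.comp_apply]
  rw [sum_swap_mul htu, chi_add]
  by_cases h1 : (α + e) t = (α + e) u
  · rw [hB0 _ h1, hB0 (α + e ∘ swap t u)]
    · simp
    · simp only [Pi.add_apply, Function.comp_apply, swap_apply_left, swap_apply_right] at h1 ⊢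
      revert h1
      generalize e t = a
      generalize e u = b
      generalize α t = c
      generalize α u = d
      revert a b c d
      decide
  · by_cases h2 : e t = e u
    · rw [comp_swap_eq h2]
      have : (f t + f u) * (α t + α u) = 1 := by
        simp only [Pi.add_apply, h2, ne_eq, Prod.mk.injEq, true_and] at h1 hne
        revert h1 hne
        generalize e u = x
        generalize f t = a
        generalize f u = b
        generalize α t = c
        generalize α u = d
        revert x a b c d
        decide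
      rw [this, chi_one]
      ring
    · have h3 : α t = α u := by
        simp only [Pi.add_apply] at h1
        revert h1 h2
        generalize e t = a
        generalize e u = b
        generalize α t = c
        generalize α u = d
        revert a b c d
        decide
      have h4 : α + e ∘ swap t u = (α + e) ∘ swap t u := by
        rw [Pi.add_comp, comp_swap_eq h3]
      have h5 : (f t + f u) * (α t + α u) = 0 := by
        rw [h3]
        generalize f t + f u = a
        generalize α u = d
        revert a d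
        decide
      rw [h4, hB, h5]
      simp [chi]

theorem Phi_swap' {t u : P} (htu : t ≠ u) (A B : (P → ZMod 2) → ℝ)
    (hA : ∀ γ, A (γ ∘ swap t u) = - A γ) (e f : P → ZMod 2) (hne : (e t, f t) ≠ (e u, f u)) :
    Phi A B (e ∘ swap t u) (f ∘ swap t u) = - Phi A B e f := by
  rw [Phi_symm, Phi_swap htu B A hA e f hne, Phi_symm A B e f]
  have := Equiv.sum_comp (swap t u) (fun p => f p * e p)
  simp only [Function.comp_apply]
  rw [this]
  ring

theorem Phi_perm (τ1 τ2 : P → ℕ × ZMod 2) (i j : P → ℕ) (e f : P → ZMod 2) (c : Perm P) :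
    Phi (D τ1 (i ∘ c)) (D τ2 (j ∘ c)) (e ∘ c) (f ∘ c) = Phi (D τ1 i) (D τ2 j) e f := by
  unfold Phi
  rw [← (Equiv.arrowCongr c.symm (Equiv.refl (ZMod 2))).sum_comp]
  refine Finset.sum_congr rfl fun α _ => ?_
  have h1 : (Equiv.arrowCongr c.symm (Equiv.refl (ZMod 2))) α = α ∘ c := by
    funext p
    simp
  rw [h1, ← Pi.add_comp, D_comp, D_comp]
  have := Equiv.sum_comp c (fun p => f p * α p)
  simp only [Function.comp_apply]
  rw [this]
  have h2 := sign_sq c
  linear_combination (chi (∑ p, f p * α p) * D τ1 i α * D τ2 j (α + e)) * h2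

theorem block_sign {N : ℕ} {X : Type*} (C : Fin N → ℕ) (hC : Monotone C)
    (Ψ : (Fin N → X) → ℝ)
    (hΨ : ∀ t u : Fin N, u.val = t.val + 1 → ∀ w, w t ≠ w u → Ψ (w ∘ swap t u) = - Ψ w)
    (c : Perm (Fin N)) (hc : ∀ p, C (c p) = C p) (w : Fin N → X)
    (hw : ∀ p q, C p = C q → w p = w q → p = q) :
    Ψ (w ∘ c) = ((Perm.sign c : ℤ) : ℝ) * Ψ w := by
  let Good : Perm (Fin N) → Prop := fun c => (∀ p, C (c p) = C p) ∧
    ∀ w : Fin N → X, (∀ p q, C p = C q → w p = w q → p = q) →
      Ψ (w ∘ c) = ((Perm.sign c : ℤ) : ℝ) * Ψ w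
  have hmul : ∀ c d, Good c → Good d → Good (c * d) := by
    rintro c d ⟨c1, c2⟩ ⟨d1, d2⟩
    refine ⟨fun p => by simp [c1, d1], fun w hw => ?_⟩
    have h1 := d2 (w ∘ c) (fun p q h1 h2 =>
      c.injective (hw _ _ (by rw [c1, c1, h1]) h2))
    rw [Perm.coe_mul, ← Function.comp_assoc, h1, c2 w hw]
    simp only [Perm.sign_mul, Units.val_mul, Int.cast_mul]
    ring
  have hone : Good 1 := ⟨fun p => rfl, fun w _ => by simp⟩
  have hadj : ∀ t u : Fin N, u.val = t.val + 1 → C t = C u → Good (swap t u) := by
    intro t u h1 h2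
    have hne : t ≠ u := by
      intro h
      rw [h] at h1
      omega
    refine ⟨fun p => congrFun (comp_swap_eq (γ := C) h2) p, fun w hw => ?_⟩
    rw [hΨ t u h1 w (fun h => hne (hw _ _ h2 h)), Perm.sign_swap hne]
    simp
  have hsw : ∀ d : ℕ, ∀ t u : Fin N, u.val = t.val + (d + 1) → C t = C u → Good (swap t u) := by
    intro d
    induction d with
    | zero => exact hadj
    | succ d ih =>
      intro t u h1 h2
      let y : Fin N := ⟨t.val + (d + 1), by omega⟩
      have hy1 : C t ≤ C y := hC (by simp [y, Fin.le_def])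
      have hy2 : C y ≤ C u := hC (by simp [y, Fin.le_def]; omega)
      have g1 := ih t y rfl (by omega)
      have g2 := hadj y u (by simp [y]; omega) (by omega)
      have := hmul _ _ (hmul _ _ g2 g1) g2
      rw [swap_mul_swap_mul_swap (by simp [y, Fin.ext_iff]) (by simp [Fin.ext_iff]; omega),
        swap_comm] at this
      exact this
  have hsw' : ∀ t u : Fin N, C t = C u → Good (swap t u) := by
    intro t u h
    rcases lt_trichotomy t.val u.val with h1 | h1 | h1
    · exact hsw (u.val - t.val - 1) t u (by omega) h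
    · rw [Fin.ext h1, swap_self]
      exact hone
    · rw [swap_comm]
      exact hsw (t.val - u.val - 1) u t (by omega) h.symm
  have hall : ∀ k : ℕ, ∀ c : Perm (Fin N), c.support.card = k → (∀ p, C (c p) = C p) →
      Good c := by
    intro k
    induction k using Nat.strong_induction_on with
    | _ k ih =>
      intro c hk hc
      by_cases h1 : c = 1
      · rw [h1]
        exact hone
      · obtain ⟨x, hx⟩ : ∃ x, c x ≠ x := by
          by_contra h
          push Not at h
          exact h1 (Equiv.ext h)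
        have g1 := hsw' x (c x) (hc x).symm
        have g2 := ih _ (hk ▸ Perm.card_support_swap_mul hx) (swap x (c x) * c) rfl
          (fun p => by rw [Perm.mul_apply, g1.1, hc])
        have := hmul _ _ g1 g2
        rwa [← mul_assoc, swap_mul_self, one_mul] at this
  exact (hall _ c rfl hc).2 w hw

end Vale.Agent.P197
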