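import Vale.Agent.P197.Zig

/-! The zigzag block, nonvanishing. -/

namespace Vale.Agent.P197

open Equiv Finset

/-- first zigzag labeling -/
def iZ (n : ℕ) (t : Fin (2 * n + 1)) : ℕ := n - (t.val + 1) / 2

/-- second zigzag labeling -/
def jZ (n : ℕ) (t : Fin (2 * n + 1)) : ℕ := t.val / 2

/-- first zigzag tableau -/
def tau1 (n : ℕ) (t : Fin (2 * n + 1)) : ℕ × ZMod 2 := (iZ n t, (t.val : ZMod 2))

/-- second zigzag tableau -/
def tau2 (n : ℕ) (t : Fin (2 * n + 1)) : ℕ × ZMod 2 := (jZ n t, (t.val : ZMod 2))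

/-- the weight `(2, ..., 2, 1)` -/
def theta (n a : ℕ) : ℕ := (n + 1 - a) - (n - 1 - a)

theorem tau1_inj (n : ℕ) : Function.Injective (tau1 n) := by
  intro s t h
  simp only [tau1, iZ, Prod.mk.injEq, ZMod.natCast_eq_natCast_iff'] at h
  apply Fin.ext
  omega

theorem tau2_inj (n : ℕ) : Function.Injective (tau2 n) := by
  intro s t h
  simp only [tau2, jZ, Prod.mk.injEq, ZMod.natCast_eq_natCast_iff'] at h
  apply Fin.ext
  omega

theorem tau1_down (n : ℕ) (q : Fin (2 * n + 1)) (a : ℕ) (h : a < (tau1 n q).1) :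
    ∃ q', tau1 n q' = (a, (tau1 n q).2) := by
  simp only [tau1, iZ] at h
  refine ⟨⟨2 * (n - a) - q.val % 2, by omega⟩, ?_⟩
  simp only [tau1, iZ, Prod.mk.injEq, ZMod.natCast_eq_natCast_iff']
  omega

theorem tau2_down (n : ℕ) (q : Fin (2 * n + 1)) (a : ℕ) (h : a < (tau2 n q).1) :
    ∃ q', tau2 n q' = (a, (tau2 n q).2) := by
  simp only [tau2, jZ] at h
  refine ⟨⟨2 * a + q.val % 2, by omega⟩, ?_⟩
  simp only [tau2, jZ, Prod.mk.injEq, ZMod.natCast_eq_natCast_iff']
  omega

theorem cnt_fin {N : ℕ} (f : ℕ → ℕ) (a : ℕ) (s : Finset ℕ) (hs : ∀ x, x ∈ s ↔ x < N ∧ f x = a) :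
    cnt (fun t : Fin N => f t.val) a = s.card := by
  unfold cnt
  refine Finset.card_bij (fun t _ => t.val) ?_ ?_ ?_
  · intro t ht
    simp only [mem_filter, mem_univ, true_and] at ht
    exact (hs _).2 ⟨t.2, ht⟩
  · intro t _ u _ h
    exact Fin.ext h
  · intro x hx
    obtain ⟨h1, h2⟩ := (hs x).1 hx
    exact ⟨⟨x, h1⟩, by simp [h2], rfl⟩

theorem cnt_iZ (n : ℕ) : cnt (iZ n) = theta n := by
  funext a
  by_cases h : a ≤ n
  · have := cnt_fin (N := 2 * n + 1) (fun t => n - (t + 1) / 2) a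
      (Finset.Ico (2 * (n - a) - 1) (2 * (n - a) + 1)) (fun x => by simp only [mem_Ico]; omega)
    refine this.trans ?_
    simp only [Nat.card_Ico, theta]
    omega
  · have := cnt_fin (N := 2 * n + 1) (fun t => n - (t + 1) / 2) a ∅
      (fun x => by simp only [Finset.notMem_empty, false_iff]; omega)
    refine this.trans ?_
    simp only [card_empty, theta]
    omega

theorem cnt_jZ (n : ℕ) : cnt (jZ n) = theta n := by
  funext a
  have := cnt_fin (N := 2 * n + 1) (fun t => t / 2) a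
      (Finset.Ico (2 * a) (min (2 * a + 2) (2 * n + 1))) (fun x => by simp only [mem_Ico]; omega)
  refine this.trans ?_
  simp only [Nat.card_Ico, theta]
  omega

theorem zmod2_ne {x y : ZMod 2} (h : x ≠ y) (z : ZMod 2) : x = z ∨ y = z := by
  revert x y z
  decide

theorem Psi_ne (n : ℕ) (e f : Fin (2 * n + 1) → ZMod 2) (he : ∑ p, e p = 0) :
    Phi (D (tau1 n) (iZ n)) (D (tau2 n) (jZ n)) e f ≠ 0 := by
  let e' : ℕ → ZMod 2 := fun s => if h : s < 2 * n + 1 then e ⟨s, h⟩ else 0
  have he' : ∀ t : Fin (2 * n + 1), e t = e' t.val := fun t => by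
    simp only [e', dif_pos t.2]
  let E : ℕ → ZMod 2 := fun k => ∑ s ∈ range k, e' s
  have hE : ∀ k, E (k + 1) = E k + e' k := fun k => Finset.sum_range_succ _ _
  have hE0 : E 0 = 0 := by simp [E]
  have hEn : E (2 * n + 1) = 0 := by
    rw [← he]
    simp only [E, he']
    exact (Fin.sum_univ_eq_sum_range e' _).symm
  let α0 : Fin (2 * n + 1) → ZMod 2 := fun t =>
    if t.val % 2 = 0 then E t.val else E (t.val + 1) + 1
  have hev : ∀ k (h : 2 * k < 2 * n + 1), α0 ⟨2 * k, h⟩ = E (2 * k) := by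
    intro k h
    simp [α0]
  have hod : ∀ k (h : 2 * k + 1 < 2 * n + 1), α0 ⟨2 * k + 1, h⟩ = E (2 * k + 2) + 1 := by
    intro k h
    simp [α0]
  unfold Phi
  rw [Finset.sum_eq_single α0]
  · refine mul_ne_zero (chi_ne _) (mul_ne_zero ?_ ?_)
    · refine D_ne_of_surj (tau1_inj n) fun q => ?_
      by_cases hq : q.val = 0
      · refine ⟨⟨2 * 0, by omega⟩, ?_⟩
        rw [hev 0]
        simp [tau1, iZ, hq, hE0]
      · obtain ⟨k, hk⟩ : ∃ k, (q.val + 1) / 2 = k + 1 := ⟨(q.val + 1) / 2 - 1, by omega⟩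
        have hq2 := q.2
        have h1 : α0 ⟨2 * k + 1, by omega⟩ ≠ α0 ⟨2 * (k + 1), by omega⟩ := by
          rw [hev, hod, show 2 * (k + 1) = 2 * k + 2 from rfl]
          simp
        rcases zmod2_ne h1 (q.val : ZMod 2) with h | h
        · refine ⟨_, Prod.ext ?_ h⟩
          simp only [tau1, iZ]
          omega
        · refine ⟨_, Prod.ext ?_ h⟩
          simp only [tau1, iZ]
          omega
    · refine D_ne_of_surj (tau2_inj n) fun q => ?_
      by_cases hq : q.val = 2 * n
      · refine ⟨⟨2 * n, by omega⟩, ?_⟩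
        rw [Pi.add_apply, hev n, he', ← hE, hEn]
        simp only [tau2, jZ, hq, Prod.mk.injEq, true_and]
        rw [eq_comm, ZMod.natCast_eq_zero_iff]
        omega
      · obtain ⟨k, hk⟩ : ∃ k, q.val / 2 = k := ⟨_, rfl⟩
        have hq2 := q.2
        have h1 : (α0 + e) ⟨2 * k, by omega⟩ ≠ (α0 + e) ⟨2 * k + 1, by omega⟩ := by
          rw [Pi.add_apply, Pi.add_apply, hev, hod, he', he', hE (2 * k + 1), hE (2 * k)]
          simp only
          generalize E (2 * k) = a
          generalize e' (2 * k) = b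
          generalize e' (2 * k + 1) = c
          revert a b c
          decide
        rcases zmod2_ne h1 (q.val : ZMod 2) with h | h
        · refine ⟨_, Prod.ext ?_ h⟩
          simp only [tau2, jZ]
          omega
        · refine ⟨_, Prod.ext ?_ h⟩
          simp only [tau2, jZ]
          omega
  · intro α _ hα
    by_contra h0
    apply hα
    have hA := left_ne_zero_of_mul (right_ne_zero_of_mul h0)
    have hB := right_ne_zero_of_mul (right_ne_zero_of_mul h0)
    have a0 : α ⟨2 * 0, by omega⟩ = 0 := by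
      obtain ⟨σ, hσ⟩ := exists_of_D_ne hA
      have h1 := hσ (σ.symm ⟨2 * 0, by omega⟩)
      simp only [Equiv.apply_symm_apply, tau1, iZ, Prod.mk.injEq] at h1
      have h2 := (σ.symm ⟨2 * 0, by omega⟩).2
      rw [h1.2, show (σ.symm ⟨2 * 0, by omega⟩).val = 0 by omega]
      simp
    have a1 : ∀ k (h : 2 * (k + 1) < 2 * n + 1),
        α ⟨2 * k + 1, by omega⟩ ≠ α ⟨2 * (k + 1), h⟩ := by
      intro k h h1
      have := inj_of_D_ne (tau1_inj n) hA (by simp only [iZ]; omega) h1
      simp only [Fin.mk.injEq] at this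
      omega
    have a2 : ∀ k (h : 2 * k + 1 < 2 * n + 1),
        (α + e) ⟨2 * k, by omega⟩ ≠ (α + e) ⟨2 * k + 1, h⟩ := by
      intro k h h1
      have := inj_of_D_ne (tau2_inj n) hB (by simp only [jZ]; omega) h1
      simp only [Fin.mk.injEq] at this
      omega
    have a3 : ∀ k (h : 2 * k < 2 * n + 1), α ⟨2 * k, h⟩ = E (2 * k) := by
      intro k
      induction k with
      | zero => intro h; rw [a0, hE0]
      | succ k ih =>
        intro h
        have b1 := a1 k h
        have b2 := a2 k (by omega)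
        rw [Pi.add_apply, Pi.add_apply, ih (by omega), he', he'] at b2
        rw [show E (2 * (k + 1)) = E (2 * k + 1 + 1) from rfl, hE, hE]
        simp only at b2
        revert b1 b2
        generalize E (2 * k) = a
        generalize e' (2 * k) = b
        generalize e' (2 * k + 1) = c
        generalize α ⟨2 * k + 1, _⟩ = d
        generalize α ⟨2 * (k + 1), _⟩ = d'
        revert a b c d d'
        decide
    funext t
    obtain ⟨t, ht⟩ := t
    rcases Nat.even_or_odd' t with ⟨k, rfl | rfl⟩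
    · rw [a3, hev]
    · have b1 := a1 k (by omega)
      rw [a3] at b1
      rw [hod, show 2 * k + 2 = 2 * (k + 1) from rfl]
      revert b1
      generalize E (2 * (k + 1)) = a
      generalize α ⟨2 * k + 1, _⟩ = d
      revert a d
      decide
  · simp

theorem zig (n : ℕ) (R C : Fin (2 * n + 1) → ℕ) (hC : Monotone C)
    (hR : ∀ p q, C p = C q → R p % 4 = R q % 4 → p = q) :
    ∃ W : (Fin (2 * n + 1) → ℕ) → (Fin (2 * n + 1) → ℕ) → ℝ,
      (∀ j, IsHW (theta n) (fun i => W i j)) ∧ (∀ i, IsHW (theta n) (W i)) ∧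
      YS R C (fun g => W (iZ n ∘ g) (jZ n ∘ g)) ≠ 0 := by
  let s : ZMod 2 := ∑ p, (R p : ZMod 2)
  let e : Fin (2 * n + 1) → ZMod 2 := fun p => (R p : ZMod 2) + s
  let f : Fin (2 * n + 1) → ZMod 2 := fun p => ((R p / 2 : ℕ) : ZMod 2)
  have he : ∑ p, e p = 0 := by
    simp only [e, Finset.sum_add_distrib, Finset.sum_const, card_univ, Fintype.card_fin,
      nsmul_eq_mul]
    change s + _ = 0
    push_cast
    generalize (n : ZMod 2) = a
    generalize s = b
    revert a b
    decide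
  refine ⟨fun i j => Phi (D (tau1 n) i) (D (tau2 n) j) e f, fun j => ?_, fun i => ?_, ?_⟩
  · unfold Phi
    refine IsHW.sum _ fun α _ => IsHW.const_mul (IsHW.mul_const ?_ _) _
    rw [← cnt_iZ]
    exact D_hw (tau1_inj n) (tau1_down n) α
  · unfold Phi
    refine IsHW.sum _ fun α _ => IsHW.const_mul (IsHW.const_mul ?_ _) _
    rw [← cnt_jZ]
    exact D_hw (tau2_inj n) (tau2_down n) _
  · refine YS_ne_of_const (Psi_ne n e f he) fun c r hc hr => ?_
    let Ψ : (Fin (2 * n + 1) → ZMod 2 × ZMod 2) → ℝ := fun w =>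
      Phi (D (tau1 n) (iZ n)) (D (tau2 n) (jZ n)) (fun p => (w p).1) (fun p => (w p).2)
    have hΨ : ∀ t u : Fin (2 * n + 1), u.val = t.val + 1 → ∀ w, w t ≠ w u →
        Ψ (w ∘ swap t u) = - Ψ w := by
      intro t u h w hw
      have htu : t ≠ u := by
        intro h'
        rw [h'] at h
        omega
      by_cases ht : t.val % 2 = 0
      · refine Phi_swap htu _ _ (fun γ => ?_) (fun p => (w p).1) (fun p => (w p).2) hw
        have h1 := D_comp (tau2 n) (jZ n) γ (swap t u)
        rw [comp_swap_eq (by simp only [jZ]; omega), Perm.sign_swap htu] at h1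
        simpa using h1
      · refine Phi_swap' htu _ _ (fun γ => ?_) (fun p => (w p).1) (fun p => (w p).2) hw
        have h1 := D_comp (tau1 n) (iZ n) γ (swap t u)
        rw [comp_swap_eq (by simp only [iZ]; omega), Perm.sign_swap htu] at h1
        simpa using h1
    have hb := block_sign C hC Ψ hΨ c⁻¹ (fun p => by rw [← hc (c⁻¹ p)]; simp)
      (fun p => (e p, f p)) (fun p q h1 h2 => hR p q h1 (by
        simp only [e, f, Prod.mk.injEq, add_left_inj, ZMod.natCast_eq_natCast_iff'] at h2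
        omega))
    have h1 := Phi_perm (tau1 n) (tau2 n) (iZ n) (jZ n) (e ∘ ⇑c⁻¹) (f ∘ ⇑c⁻¹) (c * r)
    have h2 : (e ∘ ⇑c⁻¹) ∘ ⇑(c * r) = e := by
      funext p
      simp [e, hr]
    have h3 : (f ∘ ⇑c⁻¹) ∘ ⇑(c * r) = f := by
      funext p
      simp [f, hr]
    rw [h2, h3] at h1
    simp only
    rw [h1]
    change _ * Ψ ((fun p => (e p, f p)) ∘ ⇑c⁻¹) = Ψ (fun p => (e p, f p))
    rw [hb, Perm.sign_inv, ← mul_assoc, sign_sq, one_mul]

end Vale.Agent.P197
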